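import Vale.Agent.Lib.P037I.Delete

/-!
# The removal bound for the 2 x 2 identity pattern
-/

namespace Vale.Agent.Lib.P037I

open Finset

variable {m n : ℕ}

theorem free_of_copies_zero (A : Fin m → Fin n → Bool) (h : copies A = 0) : Free A := by
  intro r1 r2 c1 c2 hc
  unfold copies at h
  rw [card_eq_zero] at h
  have hmem : ((r1, r2), (c1, c2)) ∈ (univ.filter
      (fun q : (Fin m × Fin m) × (Fin n × Fin n) => IsCopy A q.1.1 q.1.2 q.2.1 q.2.2)) :=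
    mem_filter.mpr ⟨mem_univ _, hc⟩
  rw [h] at hmem
  exact absurd hmem (notMem_empty _)

/-- The structural statement: for every block size `s` and bucket width `w` there is a
matrix without copies, at a distance controlled by the number of copies. -/
theorem structure_thm (A : Fin m → Fin n → Bool) {s w : ℕ} (hs : 0 < s) (hw : 0 < w) :
    ∃ (F : Fin m → Fin n → Bool) (X U E R D : ℕ), Free F ∧
      dist A F ≤ X + n * ((m / s + 1) * w) + m * D ∧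
      X ^ 2 ≤ 4 * (m / s + 1) * n * U ∧
      U ^ 2 ≤ (m / s + 1) * s ^ 2 * (2 * s * (n ^ 2 * s + E)) ∧
      E ^ 2 ≤ 2 * n ^ 2 * copies A ∧
      (w * R) ^ 2 ≤ n ^ 2 * (m / s + 1) ^ 2 * copies A ∧
      D ^ 2 ≤ 4 * ((m / s + 1) ^ 2 * (s / w + 2) ^ 2) * ((s / w + 2) ^ 2 * R) := by
  obtain ⟨U, hX, hU⟩ := round_cost A hs
  obtain ⟨hE, hW⟩ := W_bound A hs
  obtain ⟨ξ, hξ, hR⟩ := exists_shift A s w hw
  refine ⟨finalF A s w ξ (s / w + 2), dist A (roundB A s), U, ∑ cc, ee A s cc, rev A s w ξ,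
    (Del A s w ξ (s / w + 2)).card, finalF_free A hs hw hξ, ?_, hX, ?_, hE, hR,
    Del_card A s w ξ _⟩
  · have h1 := dist_triangle A (roundB A s) (finalF A s w ξ (s / w + 2))
    have h2 := dist_final A (s := s) hw hξ (s / w + 2)
    omega
  · exact le_trans hU (Nat.mul_le_mul_left _ hW)

/-- the constant -/
def c1 : ℕ := 324 * 1296 * 64 * 20 ^ 8 * 160000 ^ 8

theorem arith_X {n K T0 s T N X U E : ℕ} (hT0 : 41472 * K ^ 4 ≤ T0) (hT : T ≤ 2 * T0)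
    (hs1 : s * T0 ≤ n) (hs2 : n ≤ 2 * s * T0) (hN : 8 * T0 ^ 2 * N < n ^ 4)
    (hX : X ^ 2 ≤ 4 * T * n * U) (hU : U ^ 2 ≤ T * s ^ 2 * (2 * s * (n ^ 2 * s + E)))
    (hE : E ^ 2 ≤ 2 * n ^ 2 * N) : 3 * K * X ≤ n ^ 2 := by
  have hnpos : 0 < n := by
    rcases Nat.eq_zero_or_pos n with h | h
    · subst h; simp at hN
    · exact h
  have hT0pos : 0 < T0 := by
    rcases Nat.eq_zero_or_pos T0 with h | h
    · subst h; simp at hs2; omega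
    · exact h
  have h2N : 2 * N ≤ n ^ 2 * s ^ 2 := by
    have h1 : n ^ 4 ≤ n ^ 2 * (4 * s ^ 2 * T0 ^ 2) := by
      calc n ^ 4 = n ^ 2 * n ^ 2 := by ring
        _ ≤ n ^ 2 * (2 * s * T0) ^ 2 := Nat.mul_le_mul_left _ (Nat.pow_le_pow_left hs2 2)
        _ = n ^ 2 * (4 * s ^ 2 * T0 ^ 2) := by ring
    have h2 : (2 * N) * (4 * T0 ^ 2) < (n ^ 2 * s ^ 2) * (4 * T0 ^ 2) := by
      calc (2 * N) * (4 * T0 ^ 2) = 8 * T0 ^ 2 * N := by ring
        _ < n ^ 4 := hN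
        _ ≤ n ^ 2 * (4 * s ^ 2 * T0 ^ 2) := h1
        _ = (n ^ 2 * s ^ 2) * (4 * T0 ^ 2) := by ring
    exact le_of_lt (lt_of_mul_lt_mul_right h2 (Nat.zero_le _))
  have hE' : E ≤ n ^ 2 * s := by
    have h : E ^ 2 ≤ (n ^ 2 * s) ^ 2 := by
      calc E ^ 2 ≤ 2 * n ^ 2 * N := hE
        _ = n ^ 2 * (2 * N) := by ring
        _ ≤ n ^ 2 * (n ^ 2 * s ^ 2) := Nat.mul_le_mul_left _ h2N
        _ = (n ^ 2 * s) ^ 2 := by ring
    exact (Nat.pow_le_pow_iff_left (by norm_num)).mp h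
  have hU' : U ^ 2 ≤ 4 * T * n ^ 2 * s ^ 4 := by
    calc U ^ 2 ≤ T * s ^ 2 * (2 * s * (n ^ 2 * s + E)) := hU
      _ ≤ T * s ^ 2 * (2 * s * (n ^ 2 * s + n ^ 2 * s)) :=
          Nat.mul_le_mul_left _ (Nat.mul_le_mul_left _ (Nat.add_le_add_left hE' _))
      _ = 4 * T * n ^ 2 * s ^ 4 := by ring
  have hX' : X ^ 4 ≤ 64 * T ^ 3 * n ^ 4 * s ^ 4 := by
    calc X ^ 4 = (X ^ 2) ^ 2 := by ring
      _ ≤ (4 * T * n * U) ^ 2 := Nat.pow_le_pow_left hX 2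
      _ = 16 * T ^ 2 * n ^ 2 * U ^ 2 := by ring
      _ ≤ 16 * T ^ 2 * n ^ 2 * (4 * T * n ^ 2 * s ^ 4) := Nat.mul_le_mul_left _ hU'
      _ = 64 * T ^ 3 * n ^ 4 * s ^ 4 := by ring
  have hT3 : T ^ 3 ≤ (2 * T0) ^ 3 := Nat.pow_le_pow_left hT 3
  have hs4 : (s * T0) ^ 4 ≤ n ^ 4 := Nat.pow_le_pow_left hs1 4
  have hfin : (3 * K * X) ^ 4 * T0 ≤ (n ^ 2) ^ 4 * T0 := by
    calc (3 * K * X) ^ 4 * T0 = 81 * K ^ 4 * T0 * X ^ 4 := by ring
      _ ≤ 81 * K ^ 4 * T0 * (64 * T ^ 3 * n ^ 4 * s ^ 4) := Nat.mul_le_mul_left _ hX'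
      _ = 81 * K ^ 4 * T0 * 64 * n ^ 4 * s ^ 4 * T ^ 3 := by ring
      _ ≤ 81 * K ^ 4 * T0 * 64 * n ^ 4 * s ^ 4 * (2 * T0) ^ 3 := Nat.mul_le_mul_left _ hT3
      _ = (41472 * K ^ 4) * n ^ 4 * (s * T0) ^ 4 := by ring
      _ ≤ T0 * n ^ 4 * n ^ 4 := Nat.mul_le_mul (Nat.mul_le_mul_right _ hT0) hs4
      _ = (n ^ 2) ^ 4 * T0 := by ring
  have h4 := le_of_mul_le_mul_right hfin hT0pos
  exact (Nat.pow_le_pow_iff_left (by norm_num)).mp h4

theorem arith_w {n K T0 T w : ℕ} (hT : T ≤ 2 * T0) (hw : 9 * K * T0 * w ≤ n) :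
    3 * K * (n * (T * w)) ≤ n ^ 2 := by
  calc 3 * K * (n * (T * w)) = 3 * K * n * w * T := by ring
    _ ≤ 3 * K * n * w * (2 * T0) := Nat.mul_le_mul_left _ hT
    _ = n * (6 * (K * T0 * w)) := by ring
    _ ≤ n * (9 * (K * T0 * w)) := Nat.mul_le_mul_left _ (Nat.mul_le_mul_right _ (by norm_num))
    _ = n * (9 * K * T0 * w) := by ring
    _ ≤ n * n := Nat.mul_le_mul_left _ hw
    _ = n ^ 2 := by ring

theorem arith_D {n K T0 T L w N D R : ℕ} (hT0 : T0 = 160000 * K ^ 4) (hT : T ≤ 2 * T0)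
    (hL : L ≤ 20 * K) (hw : n ≤ 18 * K * T0 * w) (hn : 0 < n)
    (hD : D ^ 2 ≤ 4 * (T ^ 2 * L ^ 2) * (L ^ 2 * R))
    (hR : (w * R) ^ 2 ≤ n ^ 2 * T ^ 2 * N)
    (hbig : c1 * K ^ 46 * N < n ^ 4) : 3 * K * D ≤ n := by
  by_contra hcon
  push Not at hcon
  have h1 : n ^ 2 ≤ 36 * K ^ 2 * T ^ 2 * L ^ 4 * R := by
    calc n ^ 2 ≤ (3 * K * D) ^ 2 := Nat.pow_le_pow_left (le_of_lt hcon) 2
      _ = 9 * K ^ 2 * D ^ 2 := by ring
      _ ≤ 9 * K ^ 2 * (4 * (T ^ 2 * L ^ 2) * (L ^ 2 * R)) := Nat.mul_le_mul_left _ hD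
      _ = 36 * K ^ 2 * T ^ 2 * L ^ 4 * R := by ring
  have h2 : n ^ 2 * (n ^ 2 * w ^ 2) ≤
      n ^ 2 * ((36 * K ^ 2 * T ^ 2 * L ^ 4) ^ 2 * T ^ 2 * N) := by
    calc n ^ 2 * (n ^ 2 * w ^ 2) = (n ^ 2) ^ 2 * w ^ 2 := by ring
      _ ≤ (36 * K ^ 2 * T ^ 2 * L ^ 4 * R) ^ 2 * w ^ 2 :=
          Nat.mul_le_mul_right _ (Nat.pow_le_pow_left h1 2)
      _ = (36 * K ^ 2 * T ^ 2 * L ^ 4) ^ 2 * (w * R) ^ 2 := by ring
      _ ≤ (36 * K ^ 2 * T ^ 2 * L ^ 4) ^ 2 * (n ^ 2 * T ^ 2 * N) := Nat.mul_le_mul_left _ hR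
      _ = n ^ 2 * ((36 * K ^ 2 * T ^ 2 * L ^ 4) ^ 2 * T ^ 2 * N) := by ring
  have h3 : n ^ 2 * w ^ 2 ≤ (36 * K ^ 2 * T ^ 2 * L ^ 4) ^ 2 * T ^ 2 * N :=
    le_of_mul_le_mul_left h2 (by positivity)
  have hT2 : T ^ 2 ≤ (2 * T0) ^ 2 := Nat.pow_le_pow_left hT 2
  have hL4 : L ^ 4 ≤ (20 * K) ^ 4 := Nat.pow_le_pow_left hL 4
  have h5 : (36 * K ^ 2 * T ^ 2 * L ^ 4) ^ 2 * T ^ 2 ≤
      (36 * K ^ 2 * (2 * T0) ^ 2 * (20 * K) ^ 4) ^ 2 * (2 * T0) ^ 2 :=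
    Nat.mul_le_mul (Nat.pow_le_pow_left (Nat.mul_le_mul (Nat.mul_le_mul_left _ hT2) hL4) 2) hT2
  have h4 : n ^ 4 ≤ c1 * K ^ 46 * N := by
    calc n ^ 4 = n ^ 2 * n ^ 2 := by ring
      _ ≤ (18 * K * T0 * w) ^ 2 * n ^ 2 := Nat.mul_le_mul_right _ (Nat.pow_le_pow_left hw 2)
      _ = 324 * K ^ 2 * T0 ^ 2 * (n ^ 2 * w ^ 2) := by ring
      _ ≤ 324 * K ^ 2 * T0 ^ 2 * ((36 * K ^ 2 * T ^ 2 * L ^ 4) ^ 2 * T ^ 2 * N) :=
          Nat.mul_le_mul_left _ h3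
      _ ≤ 324 * K ^ 2 * T0 ^ 2 *
            ((36 * K ^ 2 * (2 * T0) ^ 2 * (20 * K) ^ 4) ^ 2 * (2 * T0) ^ 2 * N) :=
          Nat.mul_le_mul_left _ (Nat.mul_le_mul_right _ h5)
      _ = c1 * K ^ 46 * N := by rw [hT0]; unfold c1; ring
  omega

/-- The removal bound over the naturals: if `c1 * K ^ 46 * copies A < n ^ 4` then some matrix
without copies differs from `A` in at most `n ^ 2 / K` entries. -/
theorem nat_main (n K : ℕ) (hK : 1 ≤ K) (A : Fin n → Fin n → Bool)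
    (hbig : c1 * K ^ 46 * copies A < n ^ 4) :
    ∃ F : Fin n → Fin n → Bool, Free F ∧ K * dist A F ≤ n ^ 2 := by
  rcases Nat.eq_zero_or_pos (copies A) with h0 | hpos
  · exact ⟨A, free_of_copies_zero A h0, by rw [dist_self]; simp⟩
  · obtain ⟨T0, hT0⟩ : ∃ T0, T0 = 160000 * K ^ 4 := ⟨_, rfl⟩
    have hK4 : 1 ≤ K ^ 4 := Nat.one_le_pow _ _ hK
    have hT0pos : 0 < T0 := by rw [hT0]; omega
    have hc1K : c1 * K ^ 46 < n ^ 4 :=
      lt_of_le_of_lt (Nat.le_mul_of_pos_right _ hpos) hbig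
    have hn9 : 9 * K * T0 ≤ n := by
      have h1 : (9 * K * T0) ^ 4 < n ^ 4 := by
        calc (9 * K * T0) ^ 4 = 1440000 ^ 4 * K ^ 20 := by rw [hT0]; ring
          _ ≤ c1 * K ^ 46 :=
              Nat.mul_le_mul (by unfold c1; norm_num) (Nat.pow_le_pow_right hK (by norm_num))
          _ < n ^ 4 := hc1K
      exact le_of_lt ((Nat.pow_lt_pow_iff_left (by norm_num)).mp h1)
    have hnpos : 0 < n := by
      have : 0 < 9 * K * T0 := by positivity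
      omega
    obtain ⟨s, hs⟩ : ∃ s, s = n / T0 := ⟨_, rfl⟩
    obtain ⟨w, hwdef⟩ : ∃ w, w = n / (9 * K * T0) := ⟨_, rfl⟩
    have h9pos : 0 < 9 * K * T0 := by positivity
    have hs1 : s * T0 ≤ n := by rw [hs]; exact Nat.div_mul_le_self n T0
    have hs2' : n < T0 * (s + 1) := by rw [hs]; exact Nat.lt_mul_div_succ n hT0pos
    have hs9 : 9 * K ≤ s := by
      rw [hs]
      exact (Nat.le_div_iff_mul_le hT0pos).mpr hn9
    have hspos : 0 < s := by omega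
    have hs2'' : T0 * (s + 1) ≤ 2 * s * T0 := by
      calc T0 * (s + 1) ≤ T0 * (2 * s) := Nat.mul_le_mul_left _ (by omega)
        _ = 2 * s * T0 := by ring
    have hs2 : n ≤ 2 * s * T0 := le_of_lt (lt_of_lt_of_le hs2' hs2'')
    have hw1 : 9 * K * T0 * w ≤ n := by rw [hwdef]; exact Nat.mul_div_le n _
    have hwpos : 0 < w := by rw [hwdef]; exact Nat.div_pos hn9 h9pos
    have hw2' : n < 9 * K * T0 * (w + 1) := by rw [hwdef]; exact Nat.lt_mul_div_succ n h9pos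
    have hw2'' : 9 * K * T0 * (w + 1) ≤ 18 * K * T0 * w := by
      calc 9 * K * T0 * (w + 1) ≤ 9 * K * T0 * (2 * w) := Nat.mul_le_mul_left _ (by omega)
        _ = 18 * K * T0 * w := by ring
    have hw2 : n ≤ 18 * K * T0 * w := le_of_lt (lt_of_lt_of_le hw2' hw2'')
    have hT : n / s + 1 ≤ 2 * T0 := by
      have h : n / s < 2 * T0 := by
        rw [Nat.div_lt_iff_lt_mul hspos]
        calc n < T0 * (s + 1) := hs2'
          _ ≤ 2 * s * T0 := hs2''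
          _ = 2 * T0 * s := by ring
      omega
    have hL : s / w + 2 ≤ 20 * K := by
      have h : s / w < 18 * K := by
        rw [Nat.div_lt_iff_lt_mul hwpos]
        have h' : s * T0 < (18 * K * w) * T0 := by
          calc s * T0 ≤ n := hs1
            _ < 9 * K * T0 * (w + 1) := hw2'
            _ ≤ 18 * K * T0 * w := hw2''
            _ = (18 * K * w) * T0 := by ring
        exact lt_of_mul_lt_mul_right h' (Nat.zero_le _)
      omega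
    obtain ⟨F, X, U, E, R, D, hF, hdist, hX, hU, hE, hR, hD⟩ := structure_thm A hspos hwpos
    have hN8 : 8 * T0 ^ 2 * copies A < n ^ 4 := by
      calc 8 * T0 ^ 2 * copies A = (8 * 160000 ^ 2 * K ^ 8) * copies A := by rw [hT0]; ring
        _ ≤ (c1 * K ^ 46) * copies A :=
            Nat.mul_le_mul_right _ (Nat.mul_le_mul (by unfold c1; norm_num)
              (Nat.pow_le_pow_right hK (by norm_num)))
        _ < n ^ 4 := hbig
    have hT41 : 41472 * K ^ 4 ≤ T0 := by rw [hT0]; omega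
    have aX := arith_X hT41 hT hs1 hs2 hN8 hX hU hE
    have aw := arith_w (K := K) hT hw1
    have aD := arith_D hT0 hT hL hw2 hnpos hD hR hbig
    refine ⟨F, hF, ?_⟩
    have h3 : 3 * (K * dist A F) ≤ 3 * n ^ 2 := by
      calc 3 * (K * dist A F)
          ≤ 3 * (K * (X + n * ((n / s + 1) * w) + n * D)) :=
            Nat.mul_le_mul_left _ (Nat.mul_le_mul_left _ hdist)
        _ = 3 * K * X + 3 * K * (n * ((n / s + 1) * w)) + n * (3 * K * D) := by ring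
        _ ≤ n ^ 2 + n ^ 2 + n * n :=
            Nat.add_le_add (Nat.add_le_add aX aw) (Nat.mul_le_mul_left _ aD)
        _ = 3 * n ^ 2 := by ring
    omega

/-- Polynomial removal for the 2 x 2 identity pattern, with explicit constants. -/
theorem removal_identity (n : ℕ) (A : Fin n → Fin n → Bool) (ε : ℝ) (hε : 0 < ε) (hε1 : ε ≤ 1)
    (hfar : ∀ B : Fin n → Fin n → Bool, Free B → ε * (n : ℝ) ^ 2 ≤ (dist A B : ℝ)) :
    ε ^ 46 * (n : ℝ) ^ 4 ≤ 10 ^ 74 * (copies A : ℝ) := by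
  rcases Nat.eq_zero_or_pos n with hn0 | hnpos
  · subst hn0
    have : (0 : ℝ) ≤ (copies A : ℝ) := Nat.cast_nonneg _
    simp only [Nat.cast_zero]
    nlinarith
  · obtain ⟨K, hKdef⟩ : ∃ K : ℕ, K = ⌊1 / ε⌋₊ + 1 := ⟨_, rfl⟩
    have hK1 : 1 ≤ K := by omega
    have hinv : 1 ≤ 1 / ε := by rw [le_div_iff₀ hε]; linarith
    have hKgt : 1 / ε < (K : ℝ) := by
      rw [hKdef]; push_cast; exact Nat.lt_floor_add_one (1 / ε)
    have hKle : (K : ℝ) ≤ 2 / ε := by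
      have h1 : ((⌊1 / ε⌋₊ : ℕ) : ℝ) ≤ 1 / ε := Nat.floor_le (by positivity)
      have h2 : (2 : ℝ) / ε = 1 / ε + 1 / ε := by ring
      rw [hKdef]; push_cast; linarith
    have hKε : (K : ℝ) * ε ≤ 2 := (le_div_iff₀ hε).mp hKle
    have hKε1 : 1 < (K : ℝ) * ε := (div_lt_iff₀ hε).mp hKgt
    by_contra hcon
    push Not at hcon
    have hbigR : (c1 : ℝ) * (K : ℝ) ^ 46 * (copies A : ℝ) < (n : ℝ) ^ 4 := by
      have hε46 : 0 < ε ^ 46 := by positivity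
      have hN : (0 : ℝ) ≤ (copies A : ℝ) := Nat.cast_nonneg _
      have hpow : ((K : ℝ) * ε) ^ 46 ≤ 2 ^ 46 :=
        pow_le_pow_left₀ (by positivity) hKε 46
      have hc : (c1 : ℝ) * 2 ^ 46 ≤ 10 ^ 74 := by unfold c1; norm_num
      have h1 : (c1 : ℝ) * (K : ℝ) ^ 46 * (copies A : ℝ) * ε ^ 46 < (n : ℝ) ^ 4 * ε ^ 46 := by
        calc (c1 : ℝ) * (K : ℝ) ^ 46 * (copies A : ℝ) * ε ^ 46
            = (c1 : ℝ) * (copies A : ℝ) * ((K : ℝ) * ε) ^ 46 := by ring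
          _ ≤ (c1 : ℝ) * (copies A : ℝ) * 2 ^ 46 :=
              mul_le_mul_of_nonneg_left hpow (by positivity)
          _ = ((c1 : ℝ) * 2 ^ 46) * (copies A : ℝ) := by ring
          _ ≤ 10 ^ 74 * (copies A : ℝ) := mul_le_mul_of_nonneg_right hc hN
          _ < ε ^ 46 * (n : ℝ) ^ 4 := hcon
          _ = (n : ℝ) ^ 4 * ε ^ 46 := by ring
      exact lt_of_mul_lt_mul_right h1 (le_of_lt hε46)
    have hbig : c1 * K ^ 46 * copies A < n ^ 4 := by exact_mod_cast hbigR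
    obtain ⟨F, hF, hd⟩ := nat_main n K hK1 A hbig
    have h1 := hfar F hF
    have hdR : (K : ℝ) * (dist A F : ℝ) ≤ (n : ℝ) ^ 2 := by exact_mod_cast hd
    have hn2 : (0 : ℝ) < (n : ℝ) ^ 2 := by positivity
    have h2 : (K : ℝ) * (ε * (n : ℝ) ^ 2) ≤ (K : ℝ) * (dist A F : ℝ) :=
      mul_le_mul_of_nonneg_left h1 (by positivity)
    nlinarith

end Vale.Agent.Lib.P037I
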