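import Vale.Agent.Lib.P037I.Main

/-!
# The anti-identity pattern `[[0,1],[1,0]]`, by reversing the column order
-/

namespace Vale.Agent.Lib.P037I

open Finset

variable {m n : ℕ}

/-- `IsCopyJ A r1 r2 c1 c2`: the rows `r1 < r2` and the columns `c1 < c2` of `A` carry an ordered
copy of the pattern `[[0,1],[1,0]]`. -/
def IsCopyJ (A : Fin m → Fin n → Bool) (r1 r2 : Fin m) (c1 c2 : Fin n) : Prop :=
  r1 < r2 ∧ c1 < c2 ∧ A r1 c1 = false ∧ A r1 c2 = true ∧ A r2 c1 = true ∧ A r2 c2 = false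

instance (A : Fin m → Fin n → Bool) (r1 r2 : Fin m) (c1 c2 : Fin n) :
    Decidable (IsCopyJ A r1 r2 c1 c2) := by
  unfold IsCopyJ; infer_instance

/-- The number of ordered copies of `[[0,1],[1,0]]` in `A`. -/
def copiesJ (A : Fin m → Fin n → Bool) : ℕ :=
  (Finset.univ.filter
    (fun q : (Fin m × Fin m) × (Fin n × Fin n) => IsCopyJ A q.1.1 q.1.2 q.2.1 q.2.2)).card

/-- `A` contains no ordered copy of `[[0,1],[1,0]]`. -/
def FreeJ (A : Fin m → Fin n → Bool) : Prop :=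
  ∀ (r1 r2 : Fin m) (c1 c2 : Fin n), ¬ IsCopyJ A r1 r2 c1 c2

/-- the matrix with the column order reversed -/
def revc (A : Fin m → Fin n → Bool) : Fin m → Fin n → Bool := fun r c => A r (Fin.rev c)

theorem revc_revc (A : Fin m → Fin n → Bool) : revc (revc A) = A := by
  funext r c
  simp [revc]

theorem isCopyJ_iff (A : Fin m → Fin n → Bool) (r1 r2 : Fin m) (c1 c2 : Fin n) :
    IsCopyJ A r1 r2 c1 c2 ↔ IsCopy (revc A) r1 r2 (Fin.rev c2) (Fin.rev c1) := by
  unfold IsCopyJ IsCopy revc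
  simp only [Fin.rev_rev, Fin.rev_lt_rev]
  tauto

theorem copiesJ_eq (A : Fin m → Fin n → Bool) : copiesJ A = copies (revc A) := by
  unfold copiesJ copies
  apply card_bij (fun q _ => (q.1, (Fin.rev q.2.2, Fin.rev q.2.1)))
  · intro q hq
    have h := (mem_filter.mp hq).2
    exact mem_filter.mpr ⟨mem_univ _, (isCopyJ_iff A _ _ _ _).mp h⟩
  · intro q1 _ q2 _ h
    have h1 : q1.1 = q2.1 := (Prod.ext_iff.mp h).1
    have h2 := (Prod.ext_iff.mp h).2
    have h3 : Fin.rev q1.2.2 = Fin.rev q2.2.2 := (Prod.ext_iff.mp h2).1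
    have h4 : Fin.rev q1.2.1 = Fin.rev q2.2.1 := (Prod.ext_iff.mp h2).2
    have h5 : q1.2.2 = q2.2.2 := Fin.rev_injective h3
    have h6 : q1.2.1 = q2.2.1 := Fin.rev_injective h4
    exact Prod.ext h1 (Prod.ext h6 h5)
  · intro q hq
    have h := (mem_filter.mp hq).2
    refine ⟨(q.1, (Fin.rev q.2.2, Fin.rev q.2.1)), ?_, ?_⟩
    · refine mem_filter.mpr ⟨mem_univ _, ?_⟩
      rw [isCopyJ_iff]
      simpa using h
    · simp

theorem free_revc_of_freeJ (B : Fin m → Fin n → Bool) (h : FreeJ B) : Free (revc B) := by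
  intro r1 r2 c1 c2 hc
  apply h r1 r2 (Fin.rev c2) (Fin.rev c1)
  rw [isCopyJ_iff]
  simpa using hc

theorem freeJ_of_free_revc (B : Fin m → Fin n → Bool) (h : Free (revc B)) : FreeJ B := by
  intro r1 r2 c1 c2 hc
  exact h r1 r2 (Fin.rev c2) (Fin.rev c1) ((isCopyJ_iff B _ _ _ _).mp hc)

theorem dist_revc (A B : Fin m → Fin n → Bool) : dist (revc A) (revc B) = dist A B := by
  unfold dist
  apply card_bij (fun p _ => (p.1, Fin.rev p.2))
  · intro p hp
    have h := (mem_filter.mp hp).2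
    exact mem_filter.mpr ⟨mem_univ _, h⟩
  · intro p1 _ p2 _ h
    have h1 : p1.1 = p2.1 := (Prod.ext_iff.mp h).1
    have h2 : Fin.rev p1.2 = Fin.rev p2.2 := (Prod.ext_iff.mp h).2
    exact Prod.ext h1 (Fin.rev_injective h2)
  · intro p hp
    have h := (mem_filter.mp hp).2
    refine ⟨(p.1, Fin.rev p.2), ?_, ?_⟩
    · refine mem_filter.mpr ⟨mem_univ _, ?_⟩
      simpa [revc] using h
    · simp

/-- Polynomial removal for the 2 x 2 anti-identity pattern `[[0,1],[1,0]]`. -/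
theorem removal_anti_identity (n : ℕ) (A : Fin n → Fin n → Bool) (ε : ℝ) (hε : 0 < ε)
    (hε1 : ε ≤ 1)
    (hfar : ∀ B : Fin n → Fin n → Bool, FreeJ B → ε * (n : ℝ) ^ 2 ≤ (dist A B : ℝ)) :
    ε ^ 46 * (n : ℝ) ^ 4 ≤ 10 ^ 74 * (copiesJ A : ℝ) := by
  rw [copiesJ_eq]
  apply removal_identity n (revc A) ε hε hε1
  intro B' hB'
  have hJ : FreeJ (revc B') := by
    apply freeJ_of_free_revc
    rw [revc_revc]
    exact hB'
  have h := hfar (revc B') hJ
  have hd : dist (revc A) B' = dist A (revc B') := by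
    have := dist_revc A (revc B')
    rw [revc_revc] at this
    exact this
  rw [hd]
  exact h

end Vale.Agent.Lib.P037I
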