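import Vale.Agent.Lib.P037I.Round

/-!
# The cost of the block rounding
-/

namespace Vale.Agent.Lib.P037I

open Finset

variable {m n : ℕ}

theorem card_filter_fst {α β : Type*} [Fintype α] [Fintype β] (R : α → β → Prop)
    [∀ a b, Decidable (R a b)] :
    (univ.filter (fun q : α × β => R q.1 q.2)).card = ∑ a, (univ.filter (fun b => R a b)).card := by
  simp only [card_filter]
  rw [Fintype.sum_prod_type]

theorem card_filter_snd {α β : Type*} [Fintype α] [Fintype β] (R : α → β → Prop)
    [∀ a b, Decidable (R a b)] :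
    (univ.filter (fun q : α × β => R q.1 q.2)).card = ∑ b, (univ.filter (fun a => R a b)).card := by
  simp only [card_filter]
  rw [Fintype.sum_prod_type_right]

/-- rank-ordered row pairs inside block `k` -/
def Pairs (A : Fin m → Fin n → Bool) (s : ℕ) (k : ℕ) : Finset (Fin m × Fin m) :=
  univ.filter (fun p => blk s p.1 = k ∧ blk s p.2 = k ∧ rk A s p.1 < rk A s p.2)

/-- columns in the second row but not the first -/
def uu (A : Fin m → Fin n → Bool) (p : Fin m × Fin m) : ℕ :=
  (univ.filter (fun c : Fin n => A p.1 c = false ∧ A p.2 c = true)).card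

/-- columns in the first row but not the second -/
def uu' (A : Fin m → Fin n → Bool) (p : Fin m × Fin m) : ℕ :=
  (univ.filter (fun c : Fin n => A p.1 c = true ∧ A p.2 c = false)).card

/-- rows of block `k` with a zero in column `c` and a one in column `c'` -/
def YY (A : Fin m → Fin n → Bool) (s : ℕ) (k : ℕ) (c c' : Fin n) : ℕ :=
  (univ.filter (fun r : Fin m => blk s r = k ∧ A r c = false ∧ A r c' = true)).card

theorem YY_le {s : ℕ} (hs : 0 < s) (A : Fin m → Fin n → Bool) (k : ℕ) (c c' : Fin n) :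
    YY A s k c c' ≤ s := by
  refine le_trans ?_ (block_card_le (m := m) hs k)
  unfold YY
  apply card_le_card
  intro r hr
  exact mem_filter.mpr ⟨mem_univ _, (mem_filter.mp hr).2.1⟩

theorem YY_self (A : Fin m → Fin n → Bool) (s k : ℕ) (c : Fin n) : YY A s k c c = 0 := by
  unfold YY
  rw [card_eq_zero]
  apply filter_eq_empty_iff.mpr
  intro r _ h
  rw [h.2.1] at h
  exact Bool.false_ne_true h.2.2

theorem sum_inv (A : Fin m → Fin n → Bool) (s k : ℕ) :
    ∑ c, inv A s k c = ∑ p ∈ Pairs A s k, uu A p := by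
  have h1 : ∀ c, inv A s k c =
      ∑ p ∈ Pairs A s k, if (A p.1 c = false ∧ A p.2 c = true) then 1 else 0 := by
    intro c
    unfold inv Pairs
    rw [← filter_filter, card_filter]
  simp only [h1]
  rw [sum_comm]
  apply sum_congr rfl
  intro p _
  unfold uu
  rw [card_filter]

theorem uu_le (A : Fin m → Fin n → Bool) (s k : ℕ) {p : Fin m × Fin m}
    (hp : p ∈ Pairs A s k) : uu A p ≤ uu' A p := by
  have hp' := (mem_filter.mp hp).2
  have hb : before (rowsum A) p.1 p.2 :=
    before_of_rank_lt (blk := blk s) (hp'.1.trans hp'.2.1.symm) hp'.2.2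
  have hkey : rowsum A p.2 ≤ rowsum A p.1 := key_le_of_before _ hb
  have e1 := card_filter_add_card_filter_not
    (s := univ.filter (fun c : Fin n => A p.2 c = true)) (fun c => A p.1 c = true)
  have e2 := card_filter_add_card_filter_not
    (s := univ.filter (fun c : Fin n => A p.1 c = true)) (fun c => A p.2 c = true)
  rw [filter_filter, filter_filter] at e1 e2
  have e3 : (univ.filter (fun c : Fin n => A p.2 c = true ∧ A p.1 c = true)).card =
      (univ.filter (fun c : Fin n => A p.1 c = true ∧ A p.2 c = true)).card := by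
    congr 1
    apply filter_congr
    intro c _
    tauto
  have e4 : (univ.filter (fun c : Fin n => A p.2 c = true ∧ ¬ A p.1 c = true)) =
      univ.filter (fun c => A p.1 c = false ∧ A p.2 c = true) := by
    apply filter_congr
    intro c _
    simp only [Bool.not_eq_true]
    tauto
  have e5 : (univ.filter (fun c : Fin n => A p.1 c = true ∧ ¬ A p.2 c = true)) =
      univ.filter (fun c => A p.1 c = true ∧ A p.2 c = false) := by
    apply filter_congr
    intro c _
    simp only [Bool.not_eq_true]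
  unfold uu uu'
  unfold rowsum at hkey
  rw [e4] at e1
  rw [e5] at e2
  omega

theorem Uk_sq (A : Fin m → Fin n → Bool) {s : ℕ} (hs : 0 < s) (k : ℕ) :
    (∑ p ∈ Pairs A s k, uu A p) ^ 2 ≤ s ^ 2 * ∑ p ∈ Pairs A s k, uu A p * uu' A p := by
  have h1 := sq_sum_le_card_mul_sum_sq (s := Pairs A s k) (f := fun p => uu A p)
  have h2 : (Pairs A s k).card ≤ s ^ 2 := by
    calc (Pairs A s k).card
        ≤ ((univ.filter (fun r : Fin m => blk s r = k)) ×ˢ
            (univ.filter (fun r : Fin m => blk s r = k))).card := by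
          apply card_le_card
          intro p hp
          have := (mem_filter.mp hp).2
          exact mem_product.mpr ⟨mem_filter.mpr ⟨mem_univ _, this.1⟩,
            mem_filter.mpr ⟨mem_univ _, this.2.1⟩⟩
      _ = _ * _ := card_product _ _
      _ ≤ s * s := Nat.mul_le_mul (block_card_le hs k) (block_card_le hs k)
      _ = s ^ 2 := (sq s).symm
  have h3 : ∑ p ∈ Pairs A s k, uu A p ^ 2 ≤ ∑ p ∈ Pairs A s k, uu A p * uu' A p := by
    apply sum_le_sum
    intro p hp
    rw [sq]
    exact Nat.mul_le_mul_left _ (uu_le A s k hp)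
  calc (∑ p ∈ Pairs A s k, uu A p) ^ 2
      ≤ (Pairs A s k).card * ∑ p ∈ Pairs A s k, uu A p ^ 2 := by simpa using h1
    _ ≤ s ^ 2 * ∑ p ∈ Pairs A s k, uu A p * uu' A p := Nat.mul_le_mul h2 h3

theorem pairs_W (A : Fin m → Fin n → Bool) (s k : ℕ) :
    ∑ p ∈ Pairs A s k, uu A p * uu' A p ≤
      ∑ cc : Fin n × Fin n, YY A s k cc.1 cc.2 * YY A s k cc.2 cc.1 := by
  have h1 : ∀ p : Fin m × Fin m, p ∈ Pairs A s k → uu A p * uu' A p =
      (univ.filter (fun q : Fin n × Fin n => (blk s p.1 = k ∧ blk s p.2 = k) ∧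
        (A p.1 q.1 = false ∧ A p.2 q.1 = true) ∧ (A p.1 q.2 = true ∧ A p.2 q.2 = false))).card := by
    intro p hp
    have hp' := (mem_filter.mp hp).2
    unfold uu uu'
    rw [← card_product, ← filter_product, univ_product_univ]
    congr 1
    apply filter_congr
    intro q _
    constructor
    · intro h; exact ⟨⟨hp'.1, hp'.2.1⟩, h⟩
    · intro h; exact h.2
  have h2 : ∑ p ∈ Pairs A s k, uu A p * uu' A p ≤
      ∑ p : Fin m × Fin m, (univ.filter (fun q : Fin n × Fin n => (blk s p.1 = k ∧ blk s p.2 = k) ∧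
        (A p.1 q.1 = false ∧ A p.2 q.1 = true) ∧ (A p.1 q.2 = true ∧ A p.2 q.2 = false))).card := by
    rw [sum_congr rfl h1]
    exact sum_le_sum_of_subset (subset_univ _)
  refine le_trans h2 ?_
  rw [← card_filter_fst (fun (p : Fin m × Fin m) (q : Fin n × Fin n) =>
    (blk s p.1 = k ∧ blk s p.2 = k) ∧
      (A p.1 q.1 = false ∧ A p.2 q.1 = true) ∧ (A p.1 q.2 = true ∧ A p.2 q.2 = false))]
  rw [card_filter_snd (fun (p : Fin m × Fin m) (q : Fin n × Fin n) =>
    (blk s p.1 = k ∧ blk s p.2 = k) ∧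
      (A p.1 q.1 = false ∧ A p.2 q.1 = true) ∧ (A p.1 q.2 = true ∧ A p.2 q.2 = false))]
  apply le_of_eq
  apply sum_congr rfl
  intro cc _
  unfold YY
  rw [← card_product, ← filter_product, univ_product_univ]
  congr 1
  apply filter_congr
  intro p _
  tauto

/-- the total weight `W` -/
def WW (A : Fin m → Fin n → Bool) (s : ℕ) : ℕ :=
  ∑ cc : Fin n × Fin n, ∑ k ∈ range (m / s + 1), YY A s k cc.1 cc.2 * YY A s k cc.2 cc.1

theorem dist_round (A : Fin m → Fin n → Bool) (s : ℕ) :
    dist A (roundB A s) = 2 * ∑ k ∈ range (m / s + 1), ∑ c, zz A s k c := by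
  unfold dist
  rw [card_filter_snd (fun (r : Fin m) (c : Fin n) => A r c ≠ roundB A s r c)]
  have h1 : ∀ c : Fin n, (univ.filter (fun r : Fin m => A r c ≠ roundB A s r c)).card =
      ∑ k ∈ range (m / s + 1), 2 * zz A s k c := by
    intro c
    rw [card_eq_sum_card_fiberwise (f := blk s) (t := range (m / s + 1))]
    · apply sum_congr rfl
      intro k _
      rw [filter_filter, ← (cost_col A s k c).1]
      congr 1
      apply filter_congr
      intro r _
      tauto
    · intro r _
      exact mem_coe.mpr (mem_range.mpr (blk_lt s r))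
  simp only [h1]
  rw [sum_comm, mul_sum]
  apply sum_congr rfl
  intro k _
  rw [mul_sum]

theorem round_cost (A : Fin m → Fin n → Bool) {s : ℕ} (hs : 0 < s) :
    ∃ U : ℕ, (dist A (roundB A s)) ^ 2 ≤ 4 * (m / s + 1) * n * U ∧
      U ^ 2 ≤ (m / s + 1) * s ^ 2 * WW A s := by
  refine ⟨∑ k ∈ range (m / s + 1), ∑ p ∈ Pairs A s k, uu A p, ?_, ?_⟩
  · rw [dist_round]
    have hZ : ∀ k, (∑ c, zz A s k c) ^ 2 ≤ n * ∑ p ∈ Pairs A s k, uu A p := by
      intro k
      have h1 := sq_sum_le_card_mul_sum_sq (s := (univ : Finset (Fin n))) (f := fun c => zz A s k c)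
      have h2 : ∑ c, zz A s k c ^ 2 ≤ ∑ c, inv A s k c :=
        sum_le_sum (fun c _ => (cost_col A s k c).2)
      rw [sum_inv] at h2
      calc (∑ c, zz A s k c) ^ 2 ≤ n * ∑ c, zz A s k c ^ 2 := by simpa using h1
        _ ≤ n * ∑ p ∈ Pairs A s k, uu A p := Nat.mul_le_mul_left _ h2
    have h3 := sq_sum_le_card_mul_sum_sq (s := range (m / s + 1))
      (f := fun k => ∑ c, zz A s k c)
    have h4 : ∑ k ∈ range (m / s + 1), (∑ c, zz A s k c) ^ 2 ≤
        ∑ k ∈ range (m / s + 1), n * ∑ p ∈ Pairs A s k, uu A p :=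
      sum_le_sum (fun k _ => hZ k)
    rw [← mul_sum] at h4
    have h5 : (∑ k ∈ range (m / s + 1), ∑ c, zz A s k c) ^ 2 ≤
        (m / s + 1) * (n * ∑ k ∈ range (m / s + 1), ∑ p ∈ Pairs A s k, uu A p) := by
      calc (∑ k ∈ range (m / s + 1), ∑ c, zz A s k c) ^ 2
          ≤ (m / s + 1) * ∑ k ∈ range (m / s + 1), (∑ c, zz A s k c) ^ 2 := by simpa using h3
        _ ≤ _ := Nat.mul_le_mul_left _ h4
    nlinarith [h5]
  · have h3 := sq_sum_le_card_mul_sum_sq (s := range (m / s + 1))
      (f := fun k => ∑ p ∈ Pairs A s k, uu A p)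
    have h4 : ∑ k ∈ range (m / s + 1), (∑ p ∈ Pairs A s k, uu A p) ^ 2 ≤
        ∑ k ∈ range (m / s + 1), s ^ 2 *
          ∑ cc : Fin n × Fin n, YY A s k cc.1 cc.2 * YY A s k cc.2 cc.1 := by
      apply sum_le_sum
      intro k _
      exact le_trans (Uk_sq A hs k) (Nat.mul_le_mul_left _ (pairs_W A s k))
    rw [← mul_sum, sum_comm] at h4
    calc (∑ k ∈ range (m / s + 1), ∑ p ∈ Pairs A s k, uu A p) ^ 2
        ≤ (m / s + 1) * ∑ k ∈ range (m / s + 1), (∑ p ∈ Pairs A s k, uu A p) ^ 2 := by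
          simpa using h3
      _ ≤ (m / s + 1) * (s ^ 2 * WW A s) := Nat.mul_le_mul_left _ h4
      _ = (m / s + 1) * s ^ 2 * WW A s := by ring

end Vale.Agent.Lib.P037I
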