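import Mathlib

/-!
# Ordered copies of the 2 x 2 identity pattern in binary matrices

Statement-level definitions for the removal bound for the pattern `[[1,0],[0,1]]`.
A binary matrix is a function `Fin m → Fin n → Bool` (`true` is the entry 1).
-/

namespace Vale.Agent.Lib.P037I

/-- `IsCopy A r1 r2 c1 c2`: the rows `r1 < r2` and the columns `c1 < c2` of the binary matrix `A`
carry an ordered copy of the 2 x 2 identity pattern `[[1,0],[0,1]]`, that is
`A r1 c1 = 1`, `A r1 c2 = 0`, `A r2 c1 = 0`, `A r2 c2 = 1`. -/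
def IsCopy {m n : ℕ} (A : Fin m → Fin n → Bool) (r1 r2 : Fin m) (c1 c2 : Fin n) : Prop :=
  r1 < r2 ∧ c1 < c2 ∧ A r1 c1 = true ∧ A r1 c2 = false ∧ A r2 c1 = false ∧ A r2 c2 = true

instance {m n : ℕ} (A : Fin m → Fin n → Bool) (r1 r2 : Fin m) (c1 c2 : Fin n) :
    Decidable (IsCopy A r1 r2 c1 c2) := by
  unfold IsCopy; infer_instance

/-- The number of ordered copies of `[[1,0],[0,1]]` in `A`: the number of pairs of pairs
`((r1, r2), (c1, c2))` with `IsCopy A r1 r2 c1 c2`. -/
def copies {m n : ℕ} (A : Fin m → Fin n → Bool) : ℕ :=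
  (Finset.univ.filter
    (fun q : (Fin m × Fin m) × (Fin n × Fin n) => IsCopy A q.1.1 q.1.2 q.2.1 q.2.2)).card

/-- `A` contains no ordered copy of `[[1,0],[0,1]]`. -/
def Free {m n : ℕ} (A : Fin m → Fin n → Bool) : Prop :=
  ∀ (r1 r2 : Fin m) (c1 c2 : Fin n), ¬ IsCopy A r1 r2 c1 c2

/-- The number of entries in which the matrices `A` and `B` differ. -/
def dist {m n : ℕ} (A B : Fin m → Fin n → Bool) : ℕ :=
  (Finset.univ.filter (fun p : Fin m × Fin n => A p.1 p.2 ≠ B p.1 p.2)).card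

end Vale.Agent.Lib.P037I
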