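import Vale.Agent.Lib.P037I.Quant

/-!
# Deleting a small set of columns to destroy all strict reversals
-/

namespace Vale.Agent.Lib.P037I

open Finset

variable {m n : ℕ}

/-- columns at level at least `i` in block `k` and below level `j` in block `l`,
where `q = ((k, l), (i, j))` -/
def Cplus (A : Fin m → Fin n → Bool) (s w ξ : ℕ) (q : (ℕ × ℕ) × (ℕ × ℕ)) : Finset (Fin n) :=
  univ.filter (fun c => q.2.1 ≤ lev A s w ξ q.1.1 c ∧ lev A s w ξ q.1.2 c < q.2.2)

/-- columns below level `i` in block `k` and at level at least `j` in block `l` -/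
def Cminus (A : Fin m → Fin n → Bool) (s w ξ : ℕ) (q : (ℕ × ℕ) × (ℕ × ℕ)) : Finset (Fin n) :=
  univ.filter (fun c => lev A s w ξ q.1.1 c < q.2.1 ∧ q.2.2 ≤ lev A s w ξ q.1.2 c)

theorem Cplus_disj (A : Fin m → Fin n → Bool) (s w ξ : ℕ) (q : (ℕ × ℕ) × (ℕ × ℕ)) :
    Disjoint (Cplus A s w ξ q) (Cminus A s w ξ q) := by
  rw [disjoint_left]
  intro c h1 h2
  have a := (mem_filter.mp h1).2
  have b := (mem_filter.mp h2).2
  omega

/-- a small set of columns meeting every increasing pair from `Cplus` to `Cminus` -/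
noncomputable def cutD (A : Fin m → Fin n → Bool) (s w ξ : ℕ) (q : (ℕ × ℕ) × (ℕ × ℕ)) :
    Finset (Fin n) :=
  Classical.choose (cut_lemma (Cplus A s w ξ q) (Cminus A s w ξ q) (Cplus_disj A s w ξ q))

theorem cutD_spec (A : Fin m → Fin n → Bool) (s w ξ : ℕ) (q : (ℕ × ℕ) × (ℕ × ℕ)) :
    (∀ a ∈ Cplus A s w ξ q, ∀ b ∈ Cminus A s w ξ q, a < b →
        a ∈ cutD A s w ξ q ∨ b ∈ cutD A s w ξ q) ∧
      (cutD A s w ξ q).card ^ 2 ≤
        4 * ((Cplus A s w ξ q ×ˢ Cminus A s w ξ q).filter (fun p => p.1 < p.2)).card :=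
  Classical.choose_spec
    (cut_lemma (Cplus A s w ξ q) (Cminus A s w ξ q) (Cplus_disj A s w ξ q))

/-- the index set of block pairs and level pairs -/
def QQ (T L : ℕ) : Finset ((ℕ × ℕ) × (ℕ × ℕ)) :=
  ((range T ×ˢ range T).filter (fun kl => kl.1 < kl.2)) ×ˢ (range L ×ˢ range L)

theorem QQ_card (T L : ℕ) : (QQ T L).card ≤ T ^ 2 * L ^ 2 := by
  unfold QQ
  rw [card_product, card_product, card_range]
  have h := card_filter_le (range T ×ˢ range T) (fun kl => kl.1 < kl.2)
  rw [card_product, card_range] at h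
  calc ((range T ×ˢ range T).filter (fun kl => kl.1 < kl.2)).card * (L * L)
      ≤ (T * T) * (L * L) := Nat.mul_le_mul_right _ h
    _ = T ^ 2 * L ^ 2 := by ring

/-- the deleted columns -/
noncomputable def Del (A : Fin m → Fin n → Bool) (s w ξ L : ℕ) : Finset (Fin n) :=
  (QQ (m / s + 1) L).biUnion (cutD A s w ξ)

/-- the final matrix -/
noncomputable def finalF (A : Fin m → Fin n → Bool) (s w ξ L : ℕ) : Fin m → Fin n → Bool :=
  fun r c => decide (c ∉ Del A s w ξ L ∧ rk A s r < w * lev A s w ξ (blk s r) c)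

theorem lev_lt {s w ξ : ℕ} (hs : 0 < s) (hw : 0 < w) (hξ : ξ < w)
    (A : Fin m → Fin n → Bool) (k : ℕ) (c : Fin n) : lev A s w ξ k c < s / w + 2 := by
  unfold lev
  have h := deg_le hs A k c
  calc (deg A s k c + ξ) / w ≤ (s + w) / w := Nat.div_le_div_right (by omega)
    _ = s / w + 1 := Nat.add_div_right s hw
    _ < s / w + 2 := by omega

theorem lev_close (A : Fin m → Fin n → Bool) {s w ξ : ℕ} (hw : 0 < w) (hξ : ξ < w)
    (k : ℕ) (c : Fin n) :
    w * lev A s w ξ k c < deg A s k c + w ∧ deg A s k c < w * lev A s w ξ k c + w := by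
  unfold lev
  have h1 := Nat.mul_div_le (deg A s k c + ξ) w
  have h2 := Nat.lt_mul_div_succ (deg A s k c + ξ) hw
  rw [Nat.mul_succ] at h2
  constructor <;> omega

theorem finalF_free (A : Fin m → Fin n → Bool) {s w ξ : ℕ} (hs : 0 < s) (hw : 0 < w)
    (hξ : ξ < w) : Free (finalF A s w ξ (s / w + 2)) := by
  intro r1 r2 c1 c2 h
  obtain ⟨hr, hc, h11, h12, h21, h22⟩ := h
  unfold finalF at h11 h12 h21 h22
  have a11 := of_decide_eq_true h11
  have a22 := of_decide_eq_true h22
  have a12 := of_decide_eq_false h12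
  have a21 := of_decide_eq_false h21
  have b12 : ¬ (rk A s r1 < w * lev A s w ξ (blk s r1) c2) := fun hh => a12 ⟨a22.1, hh⟩
  have b21 : ¬ (rk A s r2 < w * lev A s w ξ (blk s r2) c1) := fun hh => a21 ⟨a11.1, hh⟩
  have b11 := a11.2
  have b22 := a22.2
  have e1 : lev A s w ξ (blk s r1) c2 < lev A s w ξ (blk s r1) c1 := by
    by_contra hcon
    push Not at hcon
    have := Nat.mul_le_mul_left w hcon
    omega
  have e2 : lev A s w ξ (blk s r2) c1 < lev A s w ξ (blk s r2) c2 := by
    by_contra hcon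
    push Not at hcon
    have := Nat.mul_le_mul_left w hcon
    omega
  have hk : blk s r1 ≤ blk s r2 := blk_mono s (le_of_lt hr)
  rcases eq_or_lt_of_le hk with hk | hk
  · rw [hk] at e1; omega
  · obtain ⟨q, hq⟩ : ∃ q : (ℕ × ℕ) × (ℕ × ℕ), q = ((blk s r1, blk s r2),
        (lev A s w ξ (blk s r1) c1, lev A s w ξ (blk s r2) c2)) := ⟨_, rfl⟩
    have hqQ : q ∈ QQ (m / s + 1) (s / w + 2) := by
      rw [hq]
      unfold QQ
      simp only [mem_product, mem_filter, mem_range]
      exact ⟨⟨⟨blk_lt s r1, blk_lt s r2⟩, hk⟩, lev_lt hs hw hξ A _ _, lev_lt hs hw hξ A _ _⟩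
    have hp : c1 ∈ Cplus A s w ξ q := by
      rw [hq]
      exact mem_filter.mpr ⟨mem_univ _, le_refl _, e2⟩
    have hm : c2 ∈ Cminus A s w ξ q := by
      rw [hq]
      exact mem_filter.mpr ⟨mem_univ _, e1, le_refl _⟩
    rcases (cutD_spec A s w ξ q).1 c1 hp c2 hm hc with hd | hd
    · exact a11.1 (mem_biUnion.mpr ⟨q, hqQ, hd⟩)
    · exact a22.1 (mem_biUnion.mpr ⟨q, hqQ, hd⟩)

theorem pairs_le_rev (A : Fin m → Fin n → Bool) (s w ξ L : ℕ) :
    ∑ q ∈ QQ (m / s + 1) L,
      ((Cplus A s w ξ q ×ˢ Cminus A s w ξ q).filter (fun p => p.1 < p.2)).card ≤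
        L ^ 2 * rev A s w ξ := by
  have h1 : ∀ q : (ℕ × ℕ) × (ℕ × ℕ),
      ((Cplus A s w ξ q ×ˢ Cminus A s w ξ q).filter (fun p => p.1 < p.2)).card =
        ∑ ab : Fin n × Fin n,
          if (ab.1 ∈ Cplus A s w ξ q ∧ ab.2 ∈ Cminus A s w ξ q) ∧ ab.1 < ab.2 then 1 else 0 := by
    intro q
    rw [← card_filter]
    congr 1
    ext ab
    simp only [mem_filter, mem_product, mem_univ, true_and]
  simp only [h1]
  rw [sum_comm]
  unfold rev
  rw [mul_sum]
  apply sum_le_sum
  intro ab _
  unfold QQ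
  rw [sum_product, sum_filter, mul_sum]
  apply sum_le_sum
  intro kl _
  by_cases hkl : kl.1 < kl.2
  · rw [if_pos hkl]
    by_cases hr : revR A s w ξ ab kl
    · rw [if_pos hr, mul_one]
      calc ∑ ij ∈ range L ×ˢ range L,
            (if (ab.1 ∈ Cplus A s w ξ (kl, ij) ∧ ab.2 ∈ Cminus A s w ξ (kl, ij)) ∧ ab.1 < ab.2
              then 1 else 0)
          ≤ ∑ ij ∈ range L ×ˢ range L, 1 := by
            apply sum_le_sum
            intro ij _
            split_ifs <;> omega
        _ = L ^ 2 := by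
            rw [sum_const, card_product, card_range, smul_eq_mul, mul_one, sq]
    · rw [if_neg hr, mul_zero]
      apply le_of_eq
      apply sum_eq_zero
      intro ij _
      rw [if_neg]
      intro hh
      apply hr
      have hp := (mem_filter.mp hh.1.1).2
      have hm := (mem_filter.mp hh.1.2).2
      simp only at hp hm
      refine ⟨hh.2, hkl, ?_, ?_⟩
      · omega
      · omega
  · rw [if_neg hkl]
    exact Nat.zero_le _

theorem Del_card (A : Fin m → Fin n → Bool) (s w ξ L : ℕ) :
    (Del A s w ξ L).card ^ 2 ≤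
      4 * ((m / s + 1) ^ 2 * L ^ 2) * (L ^ 2 * rev A s w ξ) := by
  have h1 : (Del A s w ξ L).card ≤ ∑ q ∈ QQ (m / s + 1) L, (cutD A s w ξ q).card :=
    card_biUnion_le
  have h2 := sq_sum_le_card_mul_sum_sq (s := QQ (m / s + 1) L)
    (f := fun q => (cutD A s w ξ q).card)
  have h3 : ∑ q ∈ QQ (m / s + 1) L, (cutD A s w ξ q).card ^ 2 ≤
      4 * (L ^ 2 * rev A s w ξ) := by
    calc ∑ q ∈ QQ (m / s + 1) L, (cutD A s w ξ q).card ^ 2
        ≤ ∑ q ∈ QQ (m / s + 1) L, 4 *
            ((Cplus A s w ξ q ×ˢ Cminus A s w ξ q).filter (fun p => p.1 < p.2)).card :=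
          sum_le_sum (fun q _ => (cutD_spec A s w ξ q).2)
      _ = 4 * ∑ q ∈ QQ (m / s + 1) L,
            ((Cplus A s w ξ q ×ˢ Cminus A s w ξ q).filter (fun p => p.1 < p.2)).card := by
          rw [mul_sum]
      _ ≤ 4 * (L ^ 2 * rev A s w ξ) := Nat.mul_le_mul_left _ (pairs_le_rev A s w ξ L)
  calc (Del A s w ξ L).card ^ 2
      ≤ (∑ q ∈ QQ (m / s + 1) L, (cutD A s w ξ q).card) ^ 2 := Nat.pow_le_pow_left h1 2
    _ ≤ (QQ (m / s + 1) L).card * ∑ q ∈ QQ (m / s + 1) L, (cutD A s w ξ q).card ^ 2 := h2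
    _ ≤ ((m / s + 1) ^ 2 * L ^ 2) * (4 * (L ^ 2 * rev A s w ξ)) :=
        Nat.mul_le_mul (QQ_card _ _) h3
    _ = 4 * ((m / s + 1) ^ 2 * L ^ 2) * (L ^ 2 * rev A s w ξ) := by ring

theorem dist_final (A : Fin m → Fin n → Bool) {s w ξ : ℕ} (hw : 0 < w) (hξ : ξ < w) (L : ℕ) :
    dist (roundB A s) (finalF A s w ξ L) ≤
      n * ((m / s + 1) * w) + m * (Del A s w ξ L).card := by
  have hcol : ∀ c : Fin n, (univ.filter (fun r : Fin m =>
      ¬ (rk A s r < deg A s (blk s r) c ↔ rk A s r < w * lev A s w ξ (blk s r) c))).card ≤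
        (m / s + 1) * w := by
    intro c
    rw [card_eq_sum_card_fiberwise (f := blk s) (t := range (m / s + 1))]
    · calc ∑ k ∈ range (m / s + 1), ((univ.filter (fun r : Fin m =>
              ¬ (rk A s r < deg A s (blk s r) c ↔
                rk A s r < w * lev A s w ξ (blk s r) c))).filter (fun r => blk s r = k)).card
          ≤ ∑ k ∈ range (m / s + 1), w := by
            apply sum_le_sum
            intro k _
            rw [filter_filter]
            have hc := lev_close A (s := s) hw hξ k c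
            refine le_trans (card_le_card ?_) (le_trans (card_rank_Ico (blk := blk s)
              (key := rowsum A) k (min (deg A s k c) (w * lev A s w ξ k c))
              (max (deg A s k c) (w * lev A s w ξ k c))) ?_)
            · intro r hr
              have h := (mem_filter.mp hr).2
              have hk := h.2
              rw [hk] at h
              have h' := h.1
              have hgoal : min (deg A s k c) (w * lev A s w ξ k c) ≤ rk A s r ∧
                  rk A s r < max (deg A s k c) (w * lev A s w ξ k c) := by omega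
              exact mem_filter.mpr ⟨mem_univ _, hk, hgoal⟩
            · omega
        _ = (m / s + 1) * w := by rw [sum_const, card_range, smul_eq_mul]
    · intro r _
      exact mem_coe.mpr (mem_range.mpr (blk_lt s r))
  have hsub : univ.filter (fun p : Fin m × Fin n =>
      roundB A s p.1 p.2 ≠ finalF A s w ξ L p.1 p.2) ⊆
      univ.filter (fun p : Fin m × Fin n => ¬ (rk A s p.1 < deg A s (blk s p.1) p.2 ↔
        rk A s p.1 < w * lev A s w ξ (blk s p.1) p.2)) ∪
        ((univ : Finset (Fin m)) ×ˢ Del A s w ξ L) := by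
    intro p hp
    have hne := (mem_filter.mp hp).2
    by_cases hd : p.2 ∈ Del A s w ξ L
    · exact mem_union_right _ (mem_product.mpr ⟨mem_univ _, hd⟩)
    · apply mem_union_left
      refine mem_filter.mpr ⟨mem_univ _, ?_⟩
      intro heq
      apply hne
      unfold roundB finalF
      rw [decide_eq_decide]
      constructor
      · intro h; exact ⟨hd, heq.mp h⟩
      · intro h; exact heq.mpr h.2
  unfold dist
  calc (univ.filter (fun p : Fin m × Fin n =>
        roundB A s p.1 p.2 ≠ finalF A s w ξ L p.1 p.2)).card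
      ≤ (univ.filter (fun p : Fin m × Fin n => ¬ (rk A s p.1 < deg A s (blk s p.1) p.2 ↔
          rk A s p.1 < w * lev A s w ξ (blk s p.1) p.2)) ∪
          ((univ : Finset (Fin m)) ×ˢ Del A s w ξ L)).card := card_le_card hsub
    _ ≤ (univ.filter (fun p : Fin m × Fin n => ¬ (rk A s p.1 < deg A s (blk s p.1) p.2 ↔
          rk A s p.1 < w * lev A s w ξ (blk s p.1) p.2))).card +
          (((univ : Finset (Fin m)) ×ˢ Del A s w ξ L)).card := card_union_le _ _
    _ ≤ n * ((m / s + 1) * w) + m * (Del A s w ξ L).card := by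
        apply Nat.add_le_add
        · rw [card_filter_snd (fun (r : Fin m) (c : Fin n) =>
            ¬ (rk A s r < deg A s (blk s r) c ↔ rk A s r < w * lev A s w ξ (blk s r) c))]
          calc ∑ c : Fin n, (univ.filter (fun r : Fin m =>
                ¬ (rk A s r < deg A s (blk s r) c ↔
                  rk A s r < w * lev A s w ξ (blk s r) c))).card
              ≤ ∑ c : Fin n, (m / s + 1) * w := sum_le_sum (fun c _ => hcol c)
            _ = n * ((m / s + 1) * w) := by
                rw [sum_const, card_univ, Fintype.card_fin, smul_eq_mul]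
        · rw [card_product, card_univ, Fintype.card_fin]

theorem dist_triangle (A B C : Fin m → Fin n → Bool) : dist A C ≤ dist A B + dist B C := by
  unfold dist
  refine le_trans (card_le_card ?_) (card_union_le _ _)
  intro p hp
  have h := (mem_filter.mp hp).2
  by_cases h1 : A p.1 p.2 = B p.1 p.2
  · apply mem_union_right
    refine mem_filter.mpr ⟨mem_univ _, ?_⟩
    rw [← h1]
    exact h
  · exact mem_union_left _ (mem_filter.mpr ⟨mem_univ _, h1⟩)

theorem dist_self (A : Fin m → Fin n → Bool) : dist A A = 0 := by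
  unfold dist
  rw [card_eq_zero]
  apply filter_eq_empty_iff.mpr
  intro p _ h
  exact h rfl

end Vale.Agent.Lib.P037I
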