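import Vale.Agent.Lib.P037I.Wbound

/-!
# Quantising the block column sums with a good shift
-/

namespace Vale.Agent.Lib.P037I

open Finset

variable {m n : ℕ}

/-- quantised level of the block column sum -/
def lev (A : Fin m → Fin n → Bool) (s w ξ : ℕ) (k : ℕ) (c : Fin n) : ℕ :=
  (deg A s k c + ξ) / w

/-- strict reversal of the column pair `ab` between the blocks `kl` -/
def revR (A : Fin m → Fin n → Bool) (s w ξ : ℕ) (ab : Fin n × Fin n) (kl : ℕ × ℕ) : Prop :=
  ab.1 < ab.2 ∧ kl.1 < kl.2 ∧ lev A s w ξ kl.1 ab.2 < lev A s w ξ kl.1 ab.1 ∧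
    lev A s w ξ kl.2 ab.1 < lev A s w ξ kl.2 ab.2

instance (A : Fin m → Fin n → Bool) (s w ξ : ℕ) (ab : Fin n × Fin n) (kl : ℕ × ℕ) :
    Decidable (revR A s w ξ ab kl) := by
  unfold revR; infer_instance

/-- the number of strict reversals -/
def rev (A : Fin m → Fin n → Bool) (s w ξ : ℕ) : ℕ :=
  ∑ ab : Fin n × Fin n, ∑ kl ∈ range (m / s + 1) ×ˢ range (m / s + 1),
    if revR A s w ξ ab kl then 1 else 0

/-- the margin sum -/
def Mn (A : Fin m → Fin n → Bool) (s : ℕ) : ℕ :=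
  ∑ ab : Fin n × Fin n, ∑ kl ∈ range (m / s + 1) ×ˢ range (m / s + 1),
    if ab.1 < ab.2 ∧ kl.1 < kl.2 then
      min (deg A s kl.1 ab.1 - deg A s kl.1 ab.2) (deg A s kl.2 ab.2 - deg A s kl.2 ab.1)
    else 0

theorem sum_range_lt (f : ℕ → ℕ → ℕ) (T : ℕ) :
    ∑ kl ∈ range T ×ˢ range T, (if kl.1 < kl.2 then f kl.1 kl.2 else 0) =
      ∑ l ∈ range T, ∑ k ∈ range l, f k l := by
  rw [sum_product_right]
  apply sum_congr rfl
  intro l hl
  have hl' := mem_range.mp hl
  rw [← sum_filter]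
  apply sum_congr _ (fun _ _ => rfl)
  ext k
  simp only [mem_filter, mem_range]
  omega

theorem deg_sub_le (A : Fin m → Fin n → Bool) (s k : ℕ) (a b : Fin n) :
    deg A s k a - deg A s k b ≤ YY A s k b a := by
  have e1 := card_filter_add_card_filter_not
    (s := univ.filter (fun r : Fin m => blk s r = k ∧ A r a = true)) (fun r => A r b = true)
  rw [filter_filter, filter_filter] at e1
  have e2 : (univ.filter (fun r : Fin m => (blk s r = k ∧ A r a = true) ∧ A r b = true)).card ≤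
      deg A s k b := by
    unfold deg
    apply card_le_card
    intro r hr
    have := (mem_filter.mp hr).2
    exact mem_filter.mpr ⟨mem_univ _, this.1.1, this.2⟩
  have e3 : (univ.filter (fun r : Fin m => (blk s r = k ∧ A r a = true) ∧ ¬ A r b = true)) =
      univ.filter (fun r : Fin m => blk s r = k ∧ A r b = false ∧ A r a = true) := by
    apply filter_congr
    intro r _
    simp only [Bool.not_eq_true]
    tauto
  rw [e3] at e1
  unfold YY
  have e4 : (univ.filter (fun r : Fin m => blk s r = k ∧ A r a = true)).card = deg A s k a := rfl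
  omega

theorem sum_rev_le (A : Fin m → Fin n → Bool) (s w : ℕ) (hw : 0 < w) :
    ∑ ξ ∈ range w, rev A s w ξ ≤ Mn A s := by
  unfold rev Mn
  rw [sum_comm]
  apply sum_le_sum
  intro ab _
  rw [sum_comm]
  apply sum_le_sum
  intro kl _
  by_cases hg : ab.1 < ab.2 ∧ kl.1 < kl.2
  · rw [if_pos hg]
    rw [← card_filter]
    apply le_min
    · refine le_trans ?_ (shift_count w (deg A s kl.1 ab.1) (deg A s kl.1 ab.2) hw)
      apply card_le_card
      intro ξ hξ
      have h := mem_filter.mp hξ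
      exact mem_filter.mpr ⟨h.1, h.2.2.2.1⟩
    · refine le_trans ?_ (shift_count w (deg A s kl.2 ab.2) (deg A s kl.2 ab.1) hw)
      apply card_le_card
      intro ξ hξ
      have h := mem_filter.mp hξ
      exact mem_filter.mpr ⟨h.1, h.2.2.2.2⟩
  · rw [if_neg hg]
    apply le_of_eq
    apply sum_eq_zero
    intro ξ _
    rw [if_neg]
    intro h
    exact hg ⟨h.1, h.2.1⟩

theorem Mn_sq (A : Fin m → Fin n → Bool) (s : ℕ) :
    Mn A s ^ 2 ≤ n ^ 2 * (m / s + 1) ^ 2 * copies A := by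
  obtain ⟨g, hg⟩ : ∃ g : Fin n × Fin n → ℕ × ℕ → ℕ, g = fun ab kl =>
      if ab.1 < ab.2 ∧ kl.1 < kl.2 then
        min (deg A s kl.1 ab.1 - deg A s kl.1 ab.2) (deg A s kl.2 ab.2 - deg A s kl.2 ab.1)
      else 0 := ⟨_, rfl⟩
  have hMn : Mn A s = ∑ ab : Fin n × Fin n,
      ∑ kl ∈ range (m / s + 1) ×ˢ range (m / s + 1), g ab kl := by rw [hg]; rfl
  have hgv : ∀ (ab : Fin n × Fin n) (kl : ℕ × ℕ), g ab kl =
      if ab.1 < ab.2 ∧ kl.1 < kl.2 then
        min (deg A s kl.1 ab.1 - deg A s kl.1 ab.2) (deg A s kl.2 ab.2 - deg A s kl.2 ab.1)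
      else 0 := by
    intro ab kl; rw [hg]
  have hcard1 : (univ : Finset (Fin n × Fin n)).card = n ^ 2 := by
    rw [card_univ, Fintype.card_prod, Fintype.card_fin, sq]
  have hcard2 : (range (m / s + 1) ×ˢ range (m / s + 1)).card = (m / s + 1) ^ 2 := by
    rw [card_product, card_range, sq]
  have h1 := sq_sum_le_card_mul_sum_sq (s := (univ : Finset (Fin n × Fin n)))
    (f := fun ab => ∑ kl ∈ range (m / s + 1) ×ˢ range (m / s + 1), g ab kl)
  rw [hcard1] at h1
  have h2 : ∀ ab : Fin n × Fin n,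
      (∑ kl ∈ range (m / s + 1) ×ˢ range (m / s + 1), g ab kl) ^ 2 ≤
        (m / s + 1) ^ 2 * cop A ab := by
    intro ab
    have h3 := sq_sum_le_card_mul_sum_sq (s := range (m / s + 1) ×ˢ range (m / s + 1))
      (f := fun kl => g ab kl)
    rw [hcard2] at h3
    have h4 : ∑ kl ∈ range (m / s + 1) ×ˢ range (m / s + 1), g ab kl ^ 2 ≤ cop A ab := by
      by_cases hab : ab.1 < ab.2
      · have h5 : ∑ kl ∈ range (m / s + 1) ×ˢ range (m / s + 1), g ab kl ^ 2 ≤
            ∑ kl ∈ range (m / s + 1) ×ˢ range (m / s + 1),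
              (if kl.1 < kl.2 then YY A s kl.1 ab.2 ab.1 * YY A s kl.2 ab.1 ab.2 else 0) := by
          apply sum_le_sum
          intro kl _
          rw [hgv]
          by_cases hkl : kl.1 < kl.2
          · rw [if_pos ⟨hab, hkl⟩, if_pos hkl, sq]
            exact Nat.mul_le_mul (le_trans (min_le_left _ _) (deg_sub_le A s kl.1 ab.1 ab.2))
              (le_trans (min_le_right _ _) (deg_sub_le A s kl.2 ab.2 ab.1))
          · rw [if_neg (fun h => hkl h.2)]
            simp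
        rw [sum_range_lt (fun k l => YY A s k ab.2 ab.1 * YY A s l ab.1 ab.2)] at h5
        exact le_trans h5 (CC_le_cop A s ab hab)
      · apply le_trans (le_of_eq _) (Nat.zero_le _)
        apply sum_eq_zero
        intro kl _
        rw [hgv]
        rw [if_neg (fun h => hab h.1)]
        simp
    calc (∑ kl ∈ range (m / s + 1) ×ˢ range (m / s + 1), g ab kl) ^ 2
        ≤ (m / s + 1) ^ 2 * ∑ kl ∈ range (m / s + 1) ×ˢ range (m / s + 1), g ab kl ^ 2 := by
          simpa using h3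
      _ ≤ (m / s + 1) ^ 2 * cop A ab := Nat.mul_le_mul_left _ h4
  rw [hMn]
  calc (∑ ab : Fin n × Fin n, ∑ kl ∈ range (m / s + 1) ×ˢ range (m / s + 1), g ab kl) ^ 2
      ≤ n ^ 2 * ∑ ab : Fin n × Fin n,
          (∑ kl ∈ range (m / s + 1) ×ˢ range (m / s + 1), g ab kl) ^ 2 := by simpa using h1
    _ ≤ n ^ 2 * ∑ ab : Fin n × Fin n, (m / s + 1) ^ 2 * cop A ab :=
        Nat.mul_le_mul_left _ (sum_le_sum (fun ab _ => h2 ab))
    _ = n ^ 2 * (m / s + 1) ^ 2 * copies A := by
        rw [← mul_sum, ← copies_eq]; ring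

theorem exists_shift (A : Fin m → Fin n → Bool) (s w : ℕ) (hw : 0 < w) :
    ∃ ξ, ξ < w ∧ (w * rev A s w ξ) ^ 2 ≤ n ^ 2 * (m / s + 1) ^ 2 * copies A := by
  have h1 : ∑ ξ ∈ range w, w * rev A s w ξ ≤ ∑ ξ ∈ range w, Mn A s := by
    rw [← mul_sum, sum_const, card_range, smul_eq_mul]
    exact Nat.mul_le_mul_left _ (sum_rev_le A s w hw)
  have hne : (range w).Nonempty := ⟨0, mem_range.mpr hw⟩
  obtain ⟨ξ, hξ, hle⟩ := exists_le_of_sum_le hne h1
  refine ⟨ξ, mem_range.mp hξ, ?_⟩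
  exact le_trans (Nat.pow_le_pow_left hle 2) (Mn_sq A s)

end Vale.Agent.Lib.P037I
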