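import Mathlib

/-!
# Ranks of rows inside blocks
-/

namespace Vale.Agent.Lib.P037I

open Finset

variable {m : ℕ}

/-- `before key r r'`: `r` precedes `r'` when rows are listed by decreasing key, ties by index. -/
def before (key : Fin m → ℕ) (r r' : Fin m) : Prop :=
  key r' < key r ∨ (key r' = key r ∧ r < r')

instance (key : Fin m → ℕ) (r r' : Fin m) : Decidable (before key r r') := by
  unfold before; infer_instance

theorem before_irrefl (key : Fin m → ℕ) (r : Fin m) : ¬ before key r r := by
  intro h
  rcases h with h | ⟨_, h⟩
  · exact lt_irrefl _ h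
  · exact lt_irrefl _ h

theorem before_trans (key : Fin m → ℕ) {a b c : Fin m} (h1 : before key a b)
    (h2 : before key b c) : before key a c := by
  simp only [before, Fin.lt_def] at *
  omega

theorem before_total (key : Fin m → ℕ) {a b : Fin m} (hab : a ≠ b) :
    before key a b ∨ before key b a := by
  have := Fin.val_ne_of_ne hab
  simp only [before, Fin.lt_def]
  omega

theorem key_le_of_before (key : Fin m → ℕ) {a b : Fin m} (h : before key a b) :
    key b ≤ key a := by
  rcases h with h | ⟨h, _⟩
  · exact le_of_lt h
  · exact le_of_eq h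

/-- the rank of a row inside its block -/
def rank (blk : Fin m → ℕ) (key : Fin m → ℕ) (r : Fin m) : ℕ :=
  (univ.filter (fun r' => blk r' = blk r ∧ before key r' r)).card

variable {blk : Fin m → ℕ} {key : Fin m → ℕ}

theorem rank_lt_of_before {r r' : Fin m} (h1 : blk r = blk r') (h2 : before key r r') :
    rank blk key r < rank blk key r' := by
  unfold rank
  apply card_lt_card
  rw [ssubset_iff_of_subset]
  · exact ⟨r, mem_filter.mpr ⟨mem_univ _, h1, h2⟩,
      fun h => before_irrefl key r (mem_filter.mp h).2.2⟩
  · intro x hx
    have hx' := mem_filter.mp hx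
    exact mem_filter.mpr ⟨mem_univ _, hx'.2.1.trans h1, before_trans key hx'.2.2 h2⟩

theorem before_of_rank_lt {r r' : Fin m} (h1 : blk r = blk r')
    (h2 : rank blk key r < rank blk key r') : before key r r' := by
  by_contra h
  by_cases heq : r = r'
  · subst heq; omega
  · rcases before_total key heq with h3 | h3
    · exact h h3
    · have := rank_lt_of_before (blk := blk) h1.symm h3
      omega

theorem rank_injOn (k : ℕ) : Set.InjOn (rank blk key) {r | blk r = k} := by
  intro a ha b hb hab
  by_contra hne
  have ha' : blk a = k := ha
  have hb' : blk b = k := hb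
  rcases before_total key hne with h | h
  · have := rank_lt_of_before (blk := blk) (ha'.trans hb'.symm) h
    omega
  · have := rank_lt_of_before (blk := blk) (hb'.trans ha'.symm) h
    omega

theorem card_rank_Ico (k a b : ℕ) :
    (univ.filter (fun r => blk r = k ∧ a ≤ rank blk key r ∧ rank blk key r < b)).card ≤ b - a := by
  calc (univ.filter (fun r => blk r = k ∧ a ≤ rank blk key r ∧ rank blk key r < b)).card
      ≤ (Ico a b).card := by
        apply card_le_card_of_injOn (rank blk key)
        · intro r hr
          have := (mem_filter.mp hr).2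
          exact mem_Ico.mpr ⟨this.2.1, this.2.2⟩
        · intro x hx y hy hxy
          exact rank_injOn k (mem_filter.mp (mem_coe.mp hx)).2.1
            (mem_filter.mp (mem_coe.mp hy)).2.1 hxy
    _ = b - a := Nat.card_Ico a b

theorem rank_lt_card (r : Fin m) :
    rank blk key r < (univ.filter (fun r' => blk r' = blk r)).card := by
  unfold rank
  apply card_lt_card
  rw [ssubset_iff_of_subset]
  · exact ⟨r, mem_filter.mpr ⟨mem_univ _, rfl⟩,
      fun h => before_irrefl key r (mem_filter.mp h).2.2⟩
  · intro x hx
    exact mem_filter.mpr ⟨mem_univ _, (mem_filter.mp hx).2.1⟩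

theorem card_rank_lt (k t : ℕ) (ht : t ≤ (univ.filter (fun r => blk r = k)).card) :
    (univ.filter (fun r => blk r = k ∧ rank blk key r < t)).card = t := by
  set Rk := univ.filter (fun r : Fin m => blk r = k) with hRk
  have himg : Rk.image (rank blk key) = range Rk.card := by
    apply eq_of_subset_of_card_le
    · intro j hj
      obtain ⟨r, hr, rfl⟩ := mem_image.mp hj
      have hrk : blk r = k := (mem_filter.mp hr).2
      have := rank_lt_card (blk := blk) (key := key) r
      rw [hrk] at this
      exact mem_range.mpr this
    · rw [card_range, card_image_of_injOn]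
      intro x hx y hy hxy
      exact rank_injOn k (mem_filter.mp (mem_coe.mp hx)).2 (mem_filter.mp (mem_coe.mp hy)).2 hxy
  have h2 : (univ.filter (fun r => blk r = k ∧ rank blk key r < t)).image (rank blk key)
      = range t := by
    ext j
    simp only [mem_image, mem_filter, mem_univ, true_and, mem_range]
    constructor
    · rintro ⟨r, ⟨_, hr⟩, rfl⟩
      exact hr
    · intro hj
      have hj' : j ∈ range Rk.card := mem_range.mpr (lt_of_lt_of_le hj ht)
      rw [← himg] at hj'
      obtain ⟨r, hr, rfl⟩ := mem_image.mp hj'
      exact ⟨r, ⟨(mem_filter.mp hr).2, hj⟩, rfl⟩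
  have h3 : ((univ.filter (fun r => blk r = k ∧ rank blk key r < t)).image (rank blk key)).card
      = (univ.filter (fun r => blk r = k ∧ rank blk key r < t)).card := by
    apply card_image_of_injOn
    intro x hx y hy hxy
    exact rank_injOn k (mem_filter.mp (mem_coe.mp hx)).2.1 (mem_filter.mp (mem_coe.mp hy)).2.1 hxy
  rw [h2, card_range] at h3
  exact h3.symm

end Vale.Agent.Lib.P037I
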