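import Mathlib

/-!
# Elementary counting lemmas used in the removal bound for the identity pattern
-/

namespace Vale.Agent.Lib.P037I

open Finset

/-- For sequences with `x k ≤ s`: with `M = ∑ min (x k) (y k)`,
`M ^ 2 ≤ s * M + 2 * ∑_{k < l} x k * y l`. -/
theorem seq_min_sq (s : ℕ) (x y : ℕ → ℕ) (hx : ∀ k, x k ≤ s) (T : ℕ) :
    (∑ k ∈ range T, min (x k) (y k)) ^ 2 ≤
      s * (∑ k ∈ range T, min (x k) (y k)) +
        2 * ∑ l ∈ range T, ∑ k ∈ range l, x k * y l := by
  induction T with
  | zero => simp
  | succ T ih =>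
    rw [sum_range_succ, sum_range_succ (fun l => ∑ k ∈ range l, x k * y l)]
    set M := ∑ k ∈ range T, min (x k) (y k) with hM
    set C := ∑ l ∈ range T, ∑ k ∈ range l, x k * y l with hC
    set mu := min (x T) (y T) with hmu
    have h1 : M ≤ ∑ k ∈ range T, x k := sum_le_sum (fun k _ => min_le_left _ _)
    have h2 : mu ≤ y T := min_le_right _ _
    have h3 : mu ≤ s := le_trans (min_le_left _ _) (hx T)
    have h4 : ∑ k ∈ range T, x k * y T = (∑ k ∈ range T, x k) * y T := by rw [sum_mul]
    rw [h4]
    have h5 : M * mu ≤ (∑ k ∈ range T, x k) * y T := Nat.mul_le_mul h1 h2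
    have h6 : mu * mu ≤ s * mu := Nat.mul_le_mul_right _ h3
    nlinarith [ih, h5, h6]

/-- the excess of `∑ min (x k) (y k)` over `s` -/
def eOf (s : ℕ) (x y : ℕ → ℕ) (T : ℕ) : ℕ := (∑ k ∈ range T, min (x k) (y k)) - s

/-- Block bound: `∑ x k * y k ≤ s * (s + e)` with `e ^ 2 ≤ 2 * ∑_{k < l} x k * y l`. -/
theorem seq_block_bound (s : ℕ) (x y : ℕ → ℕ) (hx : ∀ k, x k ≤ s) (hy : ∀ k, y k ≤ s)
    (T : ℕ) :
    eOf s x y T ^ 2 ≤ 2 * ∑ l ∈ range T, ∑ k ∈ range l, x k * y l ∧
      ∑ k ∈ range T, x k * y k ≤ s * (s + eOf s x y T) := by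
  have h := seq_min_sq s x y hx T
  unfold eOf
  obtain ⟨M, hM⟩ : ∃ M, M = ∑ k ∈ range T, min (x k) (y k) := ⟨_, rfl⟩
  obtain ⟨C, hC⟩ : ∃ C, C = ∑ l ∈ range T, ∑ k ∈ range l, x k * y l := ⟨_, rfl⟩
  rw [← hM, ← hC] at h
  rw [← hM, ← hC]
  refine ⟨?_, ?_⟩
  · rcases le_or_gt M s with h1 | h1
    · simp [Nat.sub_eq_zero_of_le h1]
    · obtain ⟨e, he⟩ := Nat.exists_eq_add_of_lt h1
      have h2 : M - s = e + 1 := by omega
      rw [h2]
      have h3 : M = s + e + 1 := he
      rw [h3] at h
      nlinarith
  · calc ∑ k ∈ range T, x k * y k ≤ ∑ k ∈ range T, s * min (x k) (y k) := by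
          apply sum_le_sum
          intro k _
          rcases le_total (x k) (y k) with h1 | h1
          · rw [min_eq_left h1, mul_comm]
            exact Nat.mul_le_mul_right _ (hy k)
          · rw [min_eq_right h1]
            exact Nat.mul_le_mul_right _ (hx k)
      _ = s * M := by rw [hM, mul_sum]
      _ ≤ s * (s + (M - s)) := by
          apply Nat.mul_le_mul_left
          omega

/-- The number of shifts `ξ < w` for which rounding separates `y` from `x` is at most `x - y`. -/
theorem shift_count (w x y : ℕ) (hw : 0 < w) :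
    ((range w).filter (fun ξ => (y + ξ) / w < (x + ξ) / w)).card ≤ x - y := by
  rcases le_or_gt x y with hxy | hxy
  · have : (range w).filter (fun ξ => (y + ξ) / w < (x + ξ) / w) = ∅ := by
      apply filter_eq_empty_iff.mpr
      intro ξ _
      have : (x + ξ) / w ≤ (y + ξ) / w := Nat.div_le_div_right (by omega)
      omega
    rw [this]; simp
  · rcases le_or_gt w (x - y) with h1 | h1
    · calc ((range w).filter (fun ξ => (y + ξ) / w < (x + ξ) / w)).card
          ≤ (range w).card := card_filter_le _ _
        _ = w := card_range w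
        _ ≤ x - y := h1
    · have hinj : Set.InjOn (fun ξ => (y + ξ) % w)
          ((range w).filter (fun ξ => (y + ξ) / w < (x + ξ) / w) : Finset ℕ) := by
        intro a ha b hb hab
        have ha' : a < w := by
          have := (mem_filter.mp (mem_coe.mp ha)).1
          exact mem_range.mp this
        have hb' : b < w := by
          have := (mem_filter.mp (mem_coe.mp hb)).1
          exact mem_range.mp this
        have h2 : (y + a) ≡ (y + b) [MOD w] := hab
        have h3 : a ≡ b [MOD w] := Nat.ModEq.add_left_cancel' y h2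
        have h4 : a % w = b % w := h3
        rwa [Nat.mod_eq_of_lt ha', Nat.mod_eq_of_lt hb'] at h4
      have hmaps : ∀ ξ ∈ (range w).filter (fun ξ => (y + ξ) / w < (x + ξ) / w),
          (fun ξ => (y + ξ) % w) ξ ∈ Ico (w - (x - y)) w := by
        intro ξ hξ
        have hlt := (mem_filter.mp hξ).2
        simp only [mem_Ico]
        refine ⟨?_, Nat.mod_lt _ hw⟩
        by_contra hcon
        push Not at hcon
        have h5 : (y + ξ) % w + (x - y) < w := by omega
        have h6 : x + ξ = ((y + ξ) % w + (x - y)) + w * ((y + ξ) / w) := by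
          have := Nat.mod_add_div (y + ξ) w
          omega
        have h7 : (x + ξ) / w = (y + ξ) / w := by
          rw [h6, Nat.add_mul_div_left _ _ hw, Nat.div_eq_of_lt h5]
          simp
        omega
      calc ((range w).filter (fun ξ => (y + ξ) / w < (x + ξ) / w)).card
          ≤ (Ico (w - (x - y)) w).card := card_le_card_of_injOn _ hmaps hinj
        _ = x - y := by rw [Nat.card_Ico]; omega

/-- Cut lemma: all pairs `a < b`, `a ∈ C`, `b ∈ C'` can be met by a set `D` with
`|D| ^ 2 ≤ 4 * #pairs`. -/
theorem cut_lemma {n : ℕ} (C C' : Finset (Fin n)) (hd : Disjoint C C') :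
    ∃ D : Finset (Fin n), (∀ a ∈ C, ∀ b ∈ C', a < b → a ∈ D ∨ b ∈ D) ∧
      D.card ^ 2 ≤ 4 * ((C ×ˢ C').filter (fun p => p.1 < p.2)).card := by
  classical
  set f : ℕ → ℕ := fun t => (C.filter (fun a => a.val < t)).card with hf
  set g : ℕ → ℕ := fun t => (C'.filter (fun b => t ≤ b.val)).card with hg
  set P : ℕ → Prop := fun t => f t ≤ g t with hP
  have hP0 : P 0 := by
    simp only [hP, hf]
    have : C.filter (fun a => a.val < 0) = ∅ := by
      apply filter_eq_empty_iff.mpr; intro a _; omega
    rw [this]; simp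
  set t := Nat.findGreatest P n with ht
  have hPt : P t := Nat.findGreatest_spec (Nat.zero_le n) hP0
  have htn : t ≤ n := Nat.findGreatest_le n
  have heq : f t = g t := by
    by_contra hne
    have hlt : f t < g t := lt_of_le_of_ne hPt hne
    have hgpos : 0 < g t := by omega
    obtain ⟨b0, hb0⟩ := card_pos.mp hgpos
    have hb0' := (mem_filter.mp hb0).2
    have htn' : t < n := lt_of_le_of_lt hb0' b0.isLt
    have hnP : ¬ P (t + 1) := Nat.findGreatest_is_greatest (Nat.lt_succ_self t) htn'
    have hnP' : g (t + 1) < f (t + 1) := by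
      simp only [hP] at hnP; omega
    set c0 : Fin n := ⟨t, htn'⟩ with hc0
    have hf1 : f (t + 1) ≤ f t + 1 := by
      have hsub : C.filter (fun a => a.val < t + 1) ⊆ insert c0 (C.filter (fun a => a.val < t)) := by
        intro a ha
        have ha' := mem_filter.mp ha
        rcases Nat.lt_succ_iff_lt_or_eq.mp ha'.2 with h | h
        · exact mem_insert_of_mem (mem_filter.mpr ⟨ha'.1, h⟩)
        · have : a = c0 := Fin.ext h
          rw [this]; exact mem_insert_self _ _
      calc f (t + 1) ≤ (insert c0 (C.filter (fun a => a.val < t))).card := card_le_card hsub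
        _ ≤ f t + 1 := card_insert_le _ _
    have hg1 : g t ≤ g (t + 1) + 1 := by
      have hsub : C'.filter (fun b => t ≤ b.val) ⊆ insert c0 (C'.filter (fun b => t + 1 ≤ b.val)) := by
        intro b hb
        have hb' := mem_filter.mp hb
        rcases Nat.eq_or_lt_of_le hb'.2 with h | h
        · have : b = c0 := Fin.ext h.symm
          rw [this]; exact mem_insert_self _ _
        · exact mem_insert_of_mem (mem_filter.mpr ⟨hb'.1, h⟩)
      calc g t ≤ (insert c0 (C'.filter (fun b => t + 1 ≤ b.val))).card := card_le_card hsub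
        _ ≤ g (t + 1) + 1 := card_insert_le _ _
    by_cases hc : c0 ∈ C
    · have hc' : c0 ∉ C' := fun h => (disjoint_left.mp hd) hc h
      have hg2 : g t ≤ g (t + 1) := by
        apply card_le_card
        intro b hb
        have hb' := mem_filter.mp hb
        rcases Nat.eq_or_lt_of_le hb'.2 with h | h
        · have : b = c0 := Fin.ext h.symm
          rw [this] at hb'; exact absurd hb'.1 hc'
        · exact mem_filter.mpr ⟨hb'.1, h⟩
      omega
    · have hf2 : f (t + 1) ≤ f t := by
        apply card_le_card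
        intro a ha
        have ha' := mem_filter.mp ha
        rcases Nat.lt_succ_iff_lt_or_eq.mp ha'.2 with h | h
        · exact mem_filter.mpr ⟨ha'.1, h⟩
        · have : a = c0 := Fin.ext h
          rw [this] at ha'; exact absurd ha'.1 hc
      omega
  refine ⟨C.filter (fun a => a.val < t) ∪ C'.filter (fun b => t ≤ b.val), ?_, ?_⟩
  · intro a ha b hb hab
    by_cases h : a.val < t
    · left; exact mem_union_left _ (mem_filter.mpr ⟨ha, h⟩)
    · right
      apply mem_union_right
      refine mem_filter.mpr ⟨hb, ?_⟩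
      have : a.val < b.val := hab
      omega
  · have h1 : (C.filter (fun a => a.val < t) ∪ C'.filter (fun b => t ≤ b.val)).card ≤ f t + g t :=
      card_union_le _ _
    have h2 : f t * g t ≤ ((C ×ˢ C').filter (fun p => p.1 < p.2)).card := by
      have hsub : (C.filter (fun a => a.val < t)) ×ˢ (C'.filter (fun b => t ≤ b.val)) ⊆
          (C ×ˢ C').filter (fun p => p.1 < p.2) := by
        intro p hp
        have hp' := mem_product.mp hp
        have h3 := mem_filter.mp hp'.1
        have h4 := mem_filter.mp hp'.2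
        refine mem_filter.mpr ⟨mem_product.mpr ⟨h3.1, h4.1⟩, ?_⟩
        show p.1.val < p.2.val
        omega
      calc f t * g t = ((C.filter (fun a => a.val < t)) ×ˢ (C'.filter (fun b => t ≤ b.val))).card := by
            rw [card_product]
        _ ≤ _ := card_le_card hsub
    rw [heq] at h1 h2
    nlinarith

end Vale.Agent.Lib.P037I
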