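import Vale.Agent.Lib.P037I.Defs
import Vale.Agent.Lib.P037I.Seq
import Vale.Agent.Lib.P037I.Rank

/-!
# Block rounding: nested rows inside blocks with the same block column sums
-/

namespace Vale.Agent.Lib.P037I

open Finset

variable {m n : ℕ}

/-- block index of a row, for blocks of `s` consecutive rows -/
def blk (s : ℕ) (r : Fin m) : ℕ := r.val / s

/-- number of ones in a row -/
def rowsum (A : Fin m → Fin n → Bool) (r : Fin m) : ℕ :=
  (univ.filter (fun c => A r c = true)).card

/-- rank of a row inside its block, rows listed by decreasing row sum -/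
def rk (A : Fin m → Fin n → Bool) (s : ℕ) (r : Fin m) : ℕ := rank (blk s) (rowsum A) r

/-- number of ones of column `c` inside block `k` -/
def deg (A : Fin m → Fin n → Bool) (s : ℕ) (k : ℕ) (c : Fin n) : ℕ :=
  (univ.filter (fun r : Fin m => blk s r = k ∧ A r c = true)).card

/-- the block rounding of `A` -/
def roundB (A : Fin m → Fin n → Bool) (s : ℕ) : Fin m → Fin n → Bool :=
  fun r c => decide (rk A s r < deg A s (blk s r) c)

theorem blk_lt (s : ℕ) (r : Fin m) : blk s r < m / s + 1 :=
  Nat.lt_succ_of_le (Nat.div_le_div_right (le_of_lt r.isLt))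

theorem blk_mono (s : ℕ) {r r' : Fin m} (h : r ≤ r') : blk s r ≤ blk s r' :=
  Nat.div_le_div_right h

theorem lt_of_blk_lt (s : ℕ) {r r' : Fin m} (h : blk s r < blk s r') : r < r' := by
  by_contra hcon
  push Not at hcon
  have := blk_mono s hcon
  omega

theorem block_card_le {s : ℕ} (hs : 0 < s) (k : ℕ) :
    (univ.filter (fun r : Fin m => blk s r = k)).card ≤ s := by
  calc (univ.filter (fun r : Fin m => blk s r = k)).card
      ≤ (Ico (s * k) (s * (k + 1))).card := by
        apply card_le_card_of_injOn (fun r : Fin m => r.val)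
        · intro r hr
          have hr' : r.val / s = k := (mem_filter.mp hr).2
          have h1 : s * (r.val / s) ≤ r.val := Nat.mul_div_le _ _
          have h2 : r.val < s * (r.val / s + 1) := Nat.lt_mul_div_succ _ hs
          rw [hr'] at h1 h2
          exact mem_Ico.mpr ⟨h1, h2⟩
        · intro x _ y _ hxy
          exact Fin.ext hxy
    _ = s := by
        rw [Nat.card_Ico]
        have : s * (k + 1) = s * k + s := by ring
        omega

theorem deg_le_block (A : Fin m → Fin n → Bool) (s k : ℕ) (c : Fin n) :
    deg A s k c ≤ (univ.filter (fun r : Fin m => blk s r = k)).card := by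
  unfold deg
  apply card_le_card
  intro r hr
  exact mem_filter.mpr ⟨mem_univ _, (mem_filter.mp hr).2.1⟩

theorem deg_le {s : ℕ} (hs : 0 < s) (A : Fin m → Fin n → Bool) (k : ℕ) (c : Fin n) :
    deg A s k c ≤ s :=
  le_trans (deg_le_block A s k c) (block_card_le hs k)

/-- the number of changed cells of column `c` inside block `k` is `2 * zz` -/
def zz (A : Fin m → Fin n → Bool) (s : ℕ) (k : ℕ) (c : Fin n) : ℕ :=
  (univ.filter (fun r : Fin m => blk s r = k ∧ rk A s r < deg A s k c ∧ A r c = false)).card

/-- rank-inverted row pairs of block `k` for column `c` -/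
def inv (A : Fin m → Fin n → Bool) (s : ℕ) (k : ℕ) (c : Fin n) : ℕ :=
  ((univ : Finset (Fin m × Fin m)).filter (fun p => (blk s p.1 = k ∧ blk s p.2 = k ∧
    rk A s p.1 < rk A s p.2) ∧ A p.1 c = false ∧ A p.2 c = true)).card

theorem cost_col (A : Fin m → Fin n → Bool) (s : ℕ) (k : ℕ) (c : Fin n) :
    (univ.filter (fun r : Fin m => blk s r = k ∧ A r c ≠ roundB A s r c)).card = 2 * zz A s k c ∧
      zz A s k c ^ 2 ≤ inv A s k c := by
  obtain ⟨S1, hS1⟩ : ∃ S, S = univ.filter (fun r : Fin m => blk s r = k ∧ A r c = true ∧
      ¬ (rk A s r < deg A s k c)) := ⟨_, rfl⟩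
  obtain ⟨S2, hS2⟩ : ∃ S, S = univ.filter (fun r : Fin m => blk s r = k ∧
      rk A s r < deg A s k c ∧ A r c = false) := ⟨_, rfl⟩
  obtain ⟨S3, hS3⟩ : ∃ S, S = univ.filter (fun r : Fin m => blk s r = k ∧ A r c = true ∧
      rk A s r < deg A s k c) := ⟨_, rfl⟩
  have hT1 : S3.card + S1.card = deg A s k c := by
    have h := card_filter_add_card_filter_not
      (s := univ.filter (fun r : Fin m => blk s r = k ∧ A r c = true))
      (fun r => rk A s r < deg A s k c)
    rw [filter_filter, filter_filter] at h
    have e1 : univ.filter (fun r : Fin m => (blk s r = k ∧ A r c = true) ∧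
        rk A s r < deg A s k c) = S3 := by
      rw [hS3]; apply filter_congr; intro r _; tauto
    have e2 : univ.filter (fun r : Fin m => (blk s r = k ∧ A r c = true) ∧
        ¬ rk A s r < deg A s k c) = S1 := by
      rw [hS1]; apply filter_congr; intro r _; tauto
    rw [e1, e2] at h
    exact h
  have hT2 : S3.card + S2.card = deg A s k c := by
    have hcard : (univ.filter (fun r : Fin m => blk s r = k ∧ rk A s r < deg A s k c)).card
        = deg A s k c :=
      card_rank_lt (blk := blk s) (key := rowsum A) k (deg A s k c) (deg_le_block A s k c)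
    have h := card_filter_add_card_filter_not
      (s := univ.filter (fun r : Fin m => blk s r = k ∧ rk A s r < deg A s k c))
      (fun r => A r c = true)
    rw [filter_filter, filter_filter, hcard] at h
    have e1 : univ.filter (fun r : Fin m => (blk s r = k ∧ rk A s r < deg A s k c) ∧
        A r c = true) = S3 := by
      rw [hS3]; apply filter_congr; intro r _; tauto
    have e2 : univ.filter (fun r : Fin m => (blk s r = k ∧ rk A s r < deg A s k c) ∧
        ¬ A r c = true) = S2 := by
      rw [hS2]; apply filter_congr; intro r _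
      simp only [Bool.not_eq_true]
      tauto
    rw [e1, e2] at h
    exact h
  have h12 : S1.card = S2.card := by omega
  have hzz : zz A s k c = S2.card := by rw [hS2]; rfl
  have hunion : univ.filter (fun r : Fin m => blk s r = k ∧ A r c ≠ roundB A s r c) = S1 ∪ S2 := by
    ext r
    rw [mem_union, hS1, hS2, mem_filter, mem_filter, mem_filter]
    simp only [mem_univ, true_and, roundB]
    constructor
    · rintro ⟨hk, hne⟩
      rw [hk] at hne
      by_cases hp : rk A s r < deg A s k c
      · rw [decide_eq_true hp] at hne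
        right
        exact ⟨hk, hp, by simpa using hne⟩
      · rw [decide_eq_false hp] at hne
        left
        exact ⟨hk, by simpa using hne, hp⟩
    · rintro (⟨hk, hA, hp⟩ | ⟨hk, hp, hA⟩)
      · refine ⟨hk, ?_⟩
        rw [hk, hA, decide_eq_false hp]
        simp
      · refine ⟨hk, ?_⟩
        rw [hk, hA, decide_eq_true hp]
        simp
  have hdisj : Disjoint S1 S2 := by
    rw [disjoint_left]
    intro r h1 h2
    rw [hS1] at h1
    rw [hS2] at h2
    have h1' := (mem_filter.mp h1).2
    have h2' := (mem_filter.mp h2).2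
    exact h1'.2.2 h2'.2.1
  constructor
  · rw [hunion, card_union_of_disjoint hdisj, hzz]
    omega
  · have hsub : S2 ×ˢ S1 ⊆ (univ : Finset (Fin m × Fin m)).filter (fun p => (blk s p.1 = k ∧
        blk s p.2 = k ∧ rk A s p.1 < rk A s p.2) ∧ A p.1 c = false ∧ A p.2 c = true) := by
      intro p hp
      have hp' := mem_product.mp hp
      have hp1 := hp'.1
      have hp2 := hp'.2
      rw [hS2] at hp1
      rw [hS1] at hp2
      have h1 := (mem_filter.mp hp1).2
      have h2 := (mem_filter.mp hp2).2
      refine mem_filter.mpr ⟨mem_univ _, ⟨h1.1, h2.1, ?_⟩, h1.2.2, h2.2.1⟩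
      have := h2.2.2
      omega
    have := card_le_card hsub
    rw [card_product] at this
    unfold inv
    rw [hzz, sq]
    calc S2.card * S2.card = S2.card * S1.card := by rw [h12]
      _ ≤ _ := this

end Vale.Agent.Lib.P037I
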