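import Vale.Agent.Lib.P037I.Cost

/-!
# The weight `W` is controlled by the number of copies
-/

namespace Vale.Agent.Lib.P037I

open Finset

variable {m n : ℕ}

/-- products of block counts over block pairs `k < l` are bounded by the number of row pairs -/
theorem pair_count (s : ℕ) (P Q : Fin m → Prop) [DecidablePred P] [DecidablePred Q] (T : ℕ) :
    ∑ l ∈ range T, ∑ k ∈ range l,
      (univ.filter (fun r : Fin m => blk s r = k ∧ P r)).card *
        (univ.filter (fun r : Fin m => blk s r = l ∧ Q r)).card ≤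
    (univ.filter (fun p : Fin m × Fin m =>
      blk s p.1 < blk s p.2 ∧ blk s p.2 < T ∧ P p.1 ∧ Q p.2)).card := by
  induction T with
  | zero => simp
  | succ T ih =>
    rw [sum_range_succ]
    have h1 : ∑ k ∈ range T, (univ.filter (fun r : Fin m => blk s r = k ∧ P r)).card *
        (univ.filter (fun r : Fin m => blk s r = T ∧ Q r)).card =
        (univ.filter (fun p : Fin m × Fin m =>
          (blk s p.1 < T ∧ P p.1) ∧ (blk s p.2 = T ∧ Q p.2))).card := by
      rw [← sum_mul]
      have h2 : ∑ k ∈ range T, (univ.filter (fun r : Fin m => blk s r = k ∧ P r)).card =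
          (univ.filter (fun r : Fin m => blk s r < T ∧ P r)).card := by
        rw [card_eq_sum_card_fiberwise (f := blk s) (t := range T)
          (s := univ.filter (fun r : Fin m => blk s r < T ∧ P r))]
        · apply sum_congr rfl
          intro k hk
          rw [filter_filter]
          congr 1
          apply filter_congr
          intro r _
          have := mem_range.mp hk
          constructor
          · rintro ⟨h3, h4⟩
            exact ⟨⟨by omega, h4⟩, h3⟩
          · rintro ⟨⟨_, h4⟩, h3⟩
            exact ⟨h3, h4⟩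
        · intro r hr
          exact mem_coe.mpr (mem_range.mpr (mem_filter.mp (mem_coe.mp hr)).2.1)
      rw [h2, ← card_product, ← filter_product, univ_product_univ]
    rw [h1]
    have hdisj : Disjoint (univ.filter (fun p : Fin m × Fin m =>
          blk s p.1 < blk s p.2 ∧ blk s p.2 < T ∧ P p.1 ∧ Q p.2))
        (univ.filter (fun p : Fin m × Fin m =>
          (blk s p.1 < T ∧ P p.1) ∧ (blk s p.2 = T ∧ Q p.2))) := by
      rw [disjoint_left]
      intro p h3 h4
      have h3' := (mem_filter.mp h3).2.2.1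
      have h4' := (mem_filter.mp h4).2.2.1
      omega
    calc _ ≤ (univ.filter (fun p : Fin m × Fin m =>
            blk s p.1 < blk s p.2 ∧ blk s p.2 < T ∧ P p.1 ∧ Q p.2)).card +
          (univ.filter (fun p : Fin m × Fin m =>
            (blk s p.1 < T ∧ P p.1) ∧ (blk s p.2 = T ∧ Q p.2))).card :=
          Nat.add_le_add_right ih _
      _ = (univ.filter (fun p : Fin m × Fin m =>
            blk s p.1 < blk s p.2 ∧ blk s p.2 < T ∧ P p.1 ∧ Q p.2) ∪
          univ.filter (fun p : Fin m × Fin m =>
            (blk s p.1 < T ∧ P p.1) ∧ (blk s p.2 = T ∧ Q p.2))).card :=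
          (card_union_of_disjoint hdisj).symm
      _ ≤ _ := by
          apply card_le_card
          intro p hp
          rcases mem_union.mp hp with h | h
          · have h' := (mem_filter.mp h).2
            have a1 := h'.1
            have a2 := h'.2.1
            exact mem_filter.mpr ⟨mem_univ _, a1, by omega, h'.2.2⟩
          · have h' := (mem_filter.mp h).2
            have a1 := h'.1.1
            have a2 := h'.2.1
            exact mem_filter.mpr ⟨mem_univ _, by omega, by omega, h'.1.2, h'.2.2⟩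

/-- the error term of a column pair -/
def ee (A : Fin m → Fin n → Bool) (s : ℕ) (cc : Fin n × Fin n) : ℕ :=
  if cc.1 < cc.2 then
    eOf s (fun k => YY A s k cc.2 cc.1) (fun k => YY A s k cc.1 cc.2) (m / s + 1)
  else 0

/-- copies on a given column pair -/
def cop (A : Fin m → Fin n → Bool) (cc : Fin n × Fin n) : ℕ :=
  (univ.filter (fun p : Fin m × Fin m => IsCopy A p.1 p.2 cc.1 cc.2)).card

theorem copies_eq (A : Fin m → Fin n → Bool) : copies A = ∑ cc : Fin n × Fin n, cop A cc := by
  unfold copies cop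
  rw [card_filter_snd (fun (p : Fin m × Fin m) (cc : Fin n × Fin n) =>
    IsCopy A p.1 p.2 cc.1 cc.2)]

/-- products of block counts over block pairs, for a column pair -/
def CC (A : Fin m → Fin n → Bool) (s : ℕ) (cc : Fin n × Fin n) : ℕ :=
  ∑ l ∈ range (m / s + 1), ∑ k ∈ range l, YY A s k cc.2 cc.1 * YY A s l cc.1 cc.2

theorem CC_le_cop (A : Fin m → Fin n → Bool) (s : ℕ) (cc : Fin n × Fin n) (h : cc.1 < cc.2) :
    CC A s cc ≤ cop A cc := by
  unfold CC YY cop
  refine le_trans (pair_count s (fun r => A r cc.2 = false ∧ A r cc.1 = true)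
    (fun r => A r cc.1 = false ∧ A r cc.2 = true) (m / s + 1)) ?_
  apply card_le_card
  intro p hp
  have hp' := (mem_filter.mp hp).2
  refine mem_filter.mpr ⟨mem_univ _, ?_⟩
  exact ⟨lt_of_blk_lt s hp'.1, h, hp'.2.2.1.2, hp'.2.2.1.1, hp'.2.2.2.1, hp'.2.2.2.2⟩

theorem W_bound (A : Fin m → Fin n → Bool) {s : ℕ} (hs : 0 < s) :
    (∑ cc : Fin n × Fin n, ee A s cc) ^ 2 ≤ 2 * n ^ 2 * copies A ∧
      WW A s ≤ 2 * s * (n ^ 2 * s + ∑ cc : Fin n × Fin n, ee A s cc) := by
  obtain ⟨G, hG⟩ : ∃ G : Fin n × Fin n → ℕ, G = fun cc =>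
      ∑ k ∈ range (m / s + 1), YY A s k cc.1 cc.2 * YY A s k cc.2 cc.1 := ⟨_, rfl⟩
  have hWW : WW A s = ∑ cc, G cc := by rw [hG]; rfl
  have hsym : ∀ cc : Fin n × Fin n, G cc.swap = G cc := by
    intro cc
    rw [hG]
    apply sum_congr rfl
    intro k _
    exact mul_comm _ _
  have hdiag : ∀ cc : Fin n × Fin n, cc.1 = cc.2 → G cc = 0 := by
    intro cc h
    rw [hG]
    apply sum_eq_zero
    intro k _
    rw [h, YY_self]
    simp
  have hbb : ∀ cc : Fin n × Fin n, cc.1 < cc.2 →
      ee A s cc ^ 2 ≤ 2 * CC A s cc ∧ G cc ≤ s * (s + ee A s cc) := by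
    intro cc h
    have hb := seq_block_bound s (fun k => YY A s k cc.2 cc.1) (fun k => YY A s k cc.1 cc.2)
      (fun k => YY_le hs A k _ _) (fun k => YY_le hs A k _ _) (m / s + 1)
    have he : ee A s cc = eOf s (fun k => YY A s k cc.2 cc.1) (fun k => YY A s k cc.1 cc.2)
        (m / s + 1) := by
      unfold ee; rw [if_pos h]
    rw [he]
    refine ⟨hb.1, ?_⟩
    refine le_trans (le_of_eq ?_) hb.2
    rw [hG]
    apply sum_congr rfl
    intro k _
    exact mul_comm _ _
  constructor
  · have h1 := sq_sum_le_card_mul_sum_sq (s := (univ : Finset (Fin n × Fin n)))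
      (f := fun cc => ee A s cc)
    have hcard : (univ : Finset (Fin n × Fin n)).card = n ^ 2 := by
      rw [card_univ, Fintype.card_prod, Fintype.card_fin, sq]
    rw [hcard] at h1
    have h2 : ∑ cc : Fin n × Fin n, ee A s cc ^ 2 ≤ ∑ cc : Fin n × Fin n, 2 * cop A cc := by
      apply sum_le_sum
      intro cc _
      by_cases h : cc.1 < cc.2
      · exact le_trans (hbb cc h).1 (Nat.mul_le_mul_left _ (CC_le_cop A s cc h))
      · have : ee A s cc = 0 := by unfold ee; rw [if_neg h]
        rw [this]; simp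
    rw [← mul_sum, ← copies_eq] at h2
    calc (∑ cc : Fin n × Fin n, ee A s cc) ^ 2
        ≤ n ^ 2 * ∑ cc : Fin n × Fin n, ee A s cc ^ 2 := by simpa using h1
      _ ≤ n ^ 2 * (2 * copies A) := Nat.mul_le_mul_left _ h2
      _ = 2 * n ^ 2 * copies A := by ring
  · rw [hWW]
    have h1 : ∀ cc : Fin n × Fin n, G cc ≤ (if cc.1 < cc.2 then G cc else 0) +
        (if cc.2 < cc.1 then G cc.swap else 0) := by
      intro cc
      rcases lt_trichotomy cc.1 cc.2 with h | h | h
      · rw [if_pos h]; exact Nat.le_add_right _ _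
      · rw [hdiag cc h]; exact Nat.zero_le _
      · rw [if_pos h, hsym]; exact Nat.le_add_left _ _
    have h2 : ∑ cc : Fin n × Fin n, (if cc.2 < cc.1 then G cc.swap else 0) =
        ∑ cc : Fin n × Fin n, (if cc.1 < cc.2 then G cc else 0) :=
      Equiv.sum_comp (Equiv.prodComm (Fin n) (Fin n))
        (fun cc : Fin n × Fin n => if cc.1 < cc.2 then G cc else 0)
    have h3 : ∑ cc : Fin n × Fin n, (if cc.1 < cc.2 then G cc else 0) ≤
        ∑ cc : Fin n × Fin n, (s * s + s * ee A s cc) := by
      apply sum_le_sum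
      intro cc _
      by_cases h : cc.1 < cc.2
      · rw [if_pos h]
        have := (hbb cc h).2
        calc G cc ≤ s * (s + ee A s cc) := this
          _ = s * s + s * ee A s cc := by ring
      · rw [if_neg h]; exact Nat.zero_le _
    have hcard : (univ : Finset (Fin n × Fin n)).card = n ^ 2 := by
      rw [card_univ, Fintype.card_prod, Fintype.card_fin, sq]
    have h4 : ∑ cc : Fin n × Fin n, (s * s + s * ee A s cc) =
        n ^ 2 * (s * s) + s * ∑ cc : Fin n × Fin n, ee A s cc := by
      rw [sum_add_distrib, sum_const, hcard, ← mul_sum]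
      simp
    calc ∑ cc, G cc ≤ ∑ cc : Fin n × Fin n, ((if cc.1 < cc.2 then G cc else 0) +
          (if cc.2 < cc.1 then G cc.swap else 0)) := sum_le_sum (fun cc _ => h1 cc)
      _ = 2 * ∑ cc : Fin n × Fin n, (if cc.1 < cc.2 then G cc else 0) := by
          rw [sum_add_distrib, h2]; ring
      _ ≤ 2 * (n ^ 2 * (s * s) + s * ∑ cc : Fin n × Fin n, ee A s cc) := by
          rw [← h4]; exact Nat.mul_le_mul_left _ h3
      _ = 2 * s * (n ^ 2 * s + ∑ cc : Fin n × Fin n, ee A s cc) := by ring

end Vale.Agent.Lib.P037I
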